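import Vale.Agent.P072.Stair

namespace Vale.Agent.P072

open Filter Finset

def dot (d : ℕ) (a b : ℕ → ℝ) : ℝ := ∑ j ∈ range d, a j * b j

def ext (k : ℕ) (y : ℕ → ℝ) (t : ℝ) : ℕ → ℝ := fun j => if j ≤ k then y j else t

def tail (d k : ℕ) (x : ℕ → ℝ) : ℝ := ∑ j ∈ range d, if j ≤ k then 0 else x j

noncomputable def cs (θ : ℕ → ℝ) (p T : ℝ) (q : ℕ) : ℝ :=
  ∑ t ∈ range q, Real.exp (T * (p - (t + 1))) * (θ t - θ (t + 1))

theorem dot_ext (d k : ℕ) (y : ℕ → ℝ) (t : ℝ) (x : ℕ → ℝ) :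
    dot d (ext k y t) x = dot d (ext k y 0) x + t * tail d k x := by
  unfold dot tail ext
  rw [Finset.mul_sum, ← Finset.sum_add_distrib]
  refine Finset.sum_congr rfl fun j _ => ?_
  split_ifs <;> ring

theorem dot_ext_succ (k : ℕ) (l y : ℕ → ℝ) (t : ℝ) :
    dot (k + 2) l (ext k y t) = dot (k + 1) l y + l (k + 1) * t := by
  unfold dot
  rw [Finset.sum_range_succ]
  congr 1
  · refine Finset.sum_congr rfl fun j hj => ?_
    have : j ≤ k := by have := Finset.mem_range.mp hj; omega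
    simp [ext, this]
  · simp [ext]

theorem ext_self (k : ℕ) (y : ℕ → ℝ) (h : ∀ j, k ≤ j → y j = y k) : ext k y (y k) = y := by
  funext j
  unfold ext
  split_ifs with h1
  · rfl
  · exact (h j (by omega)).symm

theorem ext_anti (k : ℕ) (y : ℕ → ℝ) (t : ℝ) (h : Antitone y) (ht : t ≤ y k) :
    Antitone (ext k y t) := by
  intro a b hab
  unfold ext
  split_ifs with h1 h2 h2
  · exact h hab
  · omega
  · exact ht.trans (h h2)
  · exact le_rfl

theorem dot_zero_left (d k : ℕ) (x : ℕ → ℝ) : dot d (ext k 0 0) x = 0 := by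
  unfold dot ext
  simp

theorem dot_zero_right (d : ℕ) (x : ℕ → ℝ) : dot d x 0 = 0 := by
  unfold dot
  simp

theorem dot_sub (d : ℕ) (a b x : ℕ → ℝ) : dot d (a - b) x = dot d a x - dot d b x := by
  unfold dot
  rw [← Finset.sum_sub_distrib]
  refine Finset.sum_congr rfl fun j _ => ?_
  simp only [Pi.sub_apply]; ring

theorem dot_div (d : ℕ) (a x : ℕ → ℝ) (r : ℝ) :
    dot d (fun j => -a j / r) x = -dot d a x / r := by
  unfold dot
  rw [← Finset.sum_neg_distrib, Finset.sum_div]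
  refine Finset.sum_congr rfl fun j _ => ?_
  ring

theorem dot_single (k : ℕ) (x : ℕ → ℝ) :
    dot (k + 1) (fun j => if j = k then 1 else 0) x = x k := by
  unfold dot
  simp

theorem tail_ge {d k : ℕ} (hk : k + 1 < d) {x : ℕ → ℝ} (hx : ∀ j, 0 < x j) :
    x (k + 1) ≤ tail d k x := by
  unfold tail
  have := Finset.single_le_sum (f := fun j => if j ≤ k then 0 else x j) (s := range d)
    (fun j _ => by split_ifs; exact le_rfl; exact (hx j).le) (Finset.mem_range.mpr hk)
  simpa using this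

theorem tail_le (d k : ℕ) {x : ℕ → ℝ} (ha : Antitone x) (hx : ∀ j, 0 < x j) :
    tail d k x ≤ d * x (k + 1) := by
  unfold tail
  have := Finset.sum_le_card_nsmul (range d) (fun j => if j ≤ k then 0 else x j) (x (k + 1))
    (fun j _ => by
      split_ifs with h
      · exact (hx _).le
      · exact ha (by omega))
  simpa using this

theorem cs_le {θ : ℕ → ℝ} (hθ : Antitone θ) (p : ℝ) {T : ℝ} (hT : 0 ≤ T) {q' q : ℕ}
    (h : q' ≤ q) :
    cs θ p T q - cs θ p T q' ≤ Real.exp (T * (p - (q' + 1))) * (θ q' - θ q) := by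
  induction q, h using Nat.le_induction with
  | base => simp
  | succ n hn ih =>
    unfold cs at ih ⊢
    rw [Finset.sum_range_succ]
    have h1 : (q' : ℝ) ≤ n := by exact_mod_cast hn
    have h2 : Real.exp (T * (p - (n + 1))) ≤ Real.exp (T * (p - (q' + 1))) :=
      Real.exp_le_exp.mpr (mul_le_mul_of_nonneg_left (by linarith) hT)
    have h3 : 0 ≤ θ n - θ (n + 1) := sub_nonneg.mpr (hθ (Nat.le_succ n))
    have h4 := mul_le_mul_of_nonneg_right h2 h3
    linarith

theorem cs_ge {θ : ℕ → ℝ} (hθ : Antitone θ) (p : ℝ) {T : ℝ} (hT : 0 ≤ T) {q q' : ℕ}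
    (h : q ≤ q') :
    Real.exp (T * (p - q')) * (θ q - θ q') ≤ cs θ p T q' - cs θ p T q := by
  induction q', h using Nat.le_induction with
  | base => simp
  | succ n hn ih =>
    unfold cs at ih ⊢
    rw [Finset.sum_range_succ]
    push_cast
    have h2 : Real.exp (T * (p - (n + 1))) ≤ Real.exp (T * (p - n)) :=
      Real.exp_le_exp.mpr (mul_le_mul_of_nonneg_left (by linarith) hT)
    have h3 : 0 ≤ θ q - θ n := sub_nonneg.mpr (hθ hn)
    have h4 := mul_le_mul_of_nonneg_right h2 h3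
    linarith

theorem cs_cross {θ : ℕ → ℝ} (hθ : Antitone θ) (p μ v : ℝ) (hv : ∀ q : ℕ, (q : ℝ) ≤ μ → θ q = v)
    {T : ℝ} (hT : 0 ≤ T) (q : ℕ) :
    cs θ p T q ≤ (θ 0 - θ q) * Real.exp (T * (p - μ)) := by
  induction q with
  | zero => simp [cs]
  | succ n ih =>
    unfold cs at ih ⊢
    rw [Finset.sum_range_succ]
    have h3 : 0 ≤ θ n - θ (n + 1) := sub_nonneg.mpr (hθ (Nat.le_succ n))
    have : Real.exp (T * (p - (n + 1))) * (θ n - θ (n + 1)) ≤
        Real.exp (T * (p - μ)) * (θ n - θ (n + 1)) := by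
      by_cases h : (n : ℝ) + 1 ≤ μ
      · rw [hv n (by linarith), hv (n + 1) (by push_cast; linarith)]; simp
      · exact mul_le_mul_of_nonneg_right
          (Real.exp_le_exp.mpr (mul_le_mul_of_nonneg_left (by linarith) hT)) h3
    linarith

theorem cs_smooth (θ : ℕ → ℝ) (p : ℝ) (q : ℕ) : ContDiff ℝ 1 fun T => cs θ p T q := by
  unfold cs
  fun_prop

theorem log_le_of {x T a : ℝ} (hx : 0 < x) (h : x ≤ Real.exp (T * a)) : Real.log x ≤ T * a :=
  (Real.log_le_iff_le_exp hx).mpr h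

theorem le_log_of {x T a : ℝ} (hx : 0 < x) (h : Real.exp (T * a) ≤ x) : T * a ≤ Real.log x :=
  (Real.le_log_iff_exp_le hx).mpr h

theorem ev_small {a : ℝ} (ha : 0 < a) (C : ℝ) {α : ℝ} (h : α < 0) :
    ∀ᶠ T : ℝ in atTop, C * Real.exp (T * α) < a := by
  filter_upwards [ev_exp (2 * C / a) h] with T hT
  simp only [mul_zero, Real.exp_zero] at hT
  have : C * Real.exp (T * α) = (a / 2) * (2 * C / a * Real.exp (T * α)) := by
    field_simp
  rw [this]
  nlinarith

theorem ev_mul (L : Set (ℕ → ℝ)) (hL : L.Finite) (k : ℕ) (C : ℝ) :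
    ∀ᶠ A : ℝ in atTop, ∀ l ∈ L, l k ≠ 0 → C ≤ A * |l k| := by
  rw [hL.eventually_all]
  intro l _
  by_cases h : l k = 0
  · exact Eventually.of_forall fun A hh => absurd h hh
  · filter_upwards [eventually_ge_atTop (C / |l k|)] with A hA _
    rwa [div_le_iff₀ (abs_pos.mpr h)] at hA

end Vale.Agent.P072
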