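import Vale.Agent.P072.Tree

namespace Vale.Agent.P072

open Filter Finset

theorem child_box {d k : ℕ} (hk : k + 1 < d) (y : ℕ → ℝ) (H0 : ℝ → ℝ) {θ : ℕ → ℝ}
    (hθ : Antitone θ) {e ρ p D R Λ : ℝ} {q Q : ℕ} (hq : q ≤ Q) (hQ : p - Q ≤ -R)
    (hep : e ≤ p) (hρ : 0 ≤ ρ) (hD : 1 ≤ D)
    (hup : ∀ q' : ℕ, e + ρ < p - q' → θ q < θ q')
    (hlo : ∀ q' : ℕ, p - q' < e - ρ → θ q' < θ q) :
    ∀ᶠ T in atTop, ∀ x : ℕ → ℝ, Antitone x → (∀ j, 0 < x j) →
      (∀ q' ≤ Q, dot d (ext k y (θ q')) x ≤ H0 T - cs θ p T q') →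
      Real.exp (T * (-R)) ≤ tail d k x → Real.log (x k) ≤ T * (p + D) →
      H0 T - cs θ p T q - Λ * Real.exp (T * (e - (ρ + D + 2) - 1)) ≤ dot d (ext k y (θ q)) x →
      |Real.log (x (k + 1)) - T * e| ≤ T * (ρ + D + 2) := by
  have hdR : (0 : ℝ) < d := by exact_mod_cast (show 0 < d by omega)
  have hU : ∀ᶠ T in atTop, ∀ x : ℕ → ℝ, Antitone x → (∀ j, 0 < x j) →
      (∀ q' ≤ Q, dot d (ext k y (θ q')) x ≤ H0 T - cs θ p T q') →
      Real.log (x k) ≤ T * (p + D) →
      H0 T - cs θ p T q - Λ * Real.exp (T * (e - (ρ + D + 2) - 1)) ≤ dot d (ext k y (θ q)) x →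
      Real.log (x (k + 1)) ≤ T * (e + (ρ + D + 2)) := by
    by_cases hu : p - (e + ρ) ≤ 0
    · filter_upwards [eventually_ge_atTop 0] with T hT x ha hx _ hk' _
      have := Real.log_le_log (hx _) (ha (Nat.le_succ k))
      have h2 : T * (p + D) ≤ T * (e + (ρ + D + 2)) :=
        mul_le_mul_of_nonneg_left (by linarith) hT
      exact this.trans (hk'.trans h2)
    · push Not at hu
      obtain ⟨q', h1, h2⟩ : ∃ q' : ℕ, (q' : ℝ) < p - (e + ρ) ∧ p - (e + ρ) ≤ q' + 1 := by
        have hc : 0 < ⌈p - (e + ρ)⌉₊ := Nat.ceil_pos.mpr hu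
        refine ⟨⌈p - (e + ρ)⌉₊ - 1, ?_, ?_⟩
        · rw [← Nat.lt_ceil]; omega
        · have := Nat.le_ceil (p - (e + ρ))
          rw [Nat.cast_sub hc]; push_cast; linarith
      have hg : θ q < θ q' := hup q' (by linarith)
      have hqq : q' ≤ q := by
        by_contra hc
        exact absurd (hθ (show q ≤ q' by omega)) (not_le.mpr hg)
      have hg0 : 0 < θ q' - θ q := by linarith
      filter_upwards [eventually_ge_atTop 0,
        ev_exp (2 * (Λ / (θ q' - θ q))) (show e - (ρ + D + 2) - 1 < e + (ρ + D + 2) by linarith),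
        ev_exp 2 (show e + ρ < e + (ρ + D + 2) by linarith)] with T hT e1 e2 x ha hx hc _ hn
      have c1 := hc q' (hqq.trans hq)
      rw [dot_ext] at c1 hn
      have c2 := cs_le hθ p hT hqq
      have c3 : Real.exp (T * (p - (q' + 1))) ≤ Real.exp (T * (e + ρ)) :=
        Real.exp_le_exp.mpr (mul_le_mul_of_nonneg_left (by linarith) hT)
      have c4 := mul_le_mul_of_nonneg_right c3 hg0.le
      have c5 := mul_le_mul_of_nonneg_left (tail_ge hk hx) hg0.le
      apply log_le_of (hx _)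
      apply le_of_mul_le_mul_left _ hg0
      have c6 := mul_le_mul_of_nonneg_left e1 hg0.le
      have c7 := mul_le_mul_of_nonneg_left e2 hg0.le
      have c8 : (θ q' - θ q) * (2 * (Λ / (θ q' - θ q)) * Real.exp (T * (e - (ρ + D + 2) - 1))) =
          2 * (Λ * Real.exp (T * (e - (ρ + D + 2) - 1))) := by field_simp
      rw [c8] at c6
      linarith
  have hL : ∀ᶠ T in atTop, ∀ x : ℕ → ℝ, Antitone x → (∀ j, 0 < x j) →
      (∀ q' ≤ Q, dot d (ext k y (θ q')) x ≤ H0 T - cs θ p T q') →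
      Real.exp (T * (-R)) ≤ tail d k x →
      H0 T - cs θ p T q - Λ * Real.exp (T * (e - (ρ + D + 2) - 1)) ≤ dot d (ext k y (θ q)) x →
      T * (e - (ρ + D + 2)) ≤ Real.log (x (k + 1)) := by
    have hv : 0 ≤ p - (e - ρ) := by linarith
    obtain ⟨q', h1, h2⟩ : ∃ q' : ℕ, p - (e - ρ) < q' ∧ (q' : ℝ) ≤ p - (e - ρ) + 1 := by
      refine ⟨⌊p - (e - ρ)⌋₊ + 1, ?_, ?_⟩
      · push_cast; exact Nat.lt_floor_add_one _
      · push_cast; linarith [Nat.floor_le hv]
    by_cases hq' : q' ≤ Q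
    · have hg : θ q' < θ q := hlo q' (by linarith)
      have hqq : q ≤ q' := by
        by_contra hc
        exact absurd (hθ (show q' ≤ q by omega)) (not_le.mpr hg)
      have hg0 : 0 < θ q - θ q' := by linarith
      filter_upwards [eventually_ge_atTop 0,
        ev_exp (2 * (Λ / (θ q - θ q'))) (show e - (ρ + D + 2) - 1 < e - ρ - 1 by linarith),
        ev_exp (2 * d) (show e - (ρ + D + 2) < e - ρ - 1 by linarith)] with T hT e1 e2 x ha hx hc _ hn
      have c1 := hc q' hq'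
      rw [dot_ext] at c1 hn
      have c2 := cs_ge hθ p hT hqq
      have c3 : Real.exp (T * (e - ρ - 1)) ≤ Real.exp (T * (p - q')) :=
        Real.exp_le_exp.mpr (mul_le_mul_of_nonneg_left (by linarith) hT)
      have c4 := mul_le_mul_of_nonneg_right c3 hg0.le
      have c5 := mul_le_mul_of_nonneg_left (tail_le d k ha hx) hg0.le
      apply le_log_of (hx _)
      apply le_of_mul_le_mul_left _ hdR
      apply le_of_mul_le_mul_left _ hg0
      have c6 := mul_le_mul_of_nonneg_left e1 hg0.le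
      have c7 := mul_le_mul_of_nonneg_left e2 hg0.le
      have c8 : (θ q - θ q') * (2 * (Λ / (θ q - θ q')) * Real.exp (T * (e - (ρ + D + 2) - 1))) =
          2 * (Λ * Real.exp (T * (e - (ρ + D + 2) - 1))) := by field_simp
      rw [c8] at c6
      linarith
    · have h3 : (Q : ℝ) + 1 ≤ q' := by exact_mod_cast (show Q + 1 ≤ q' by omega)
      filter_upwards [ev_exp d (show e - (ρ + D + 2) < -R by linarith)] with T e1 x ha hx _ ht _
      apply le_log_of (hx _)
      apply le_of_mul_le_mul_left _ hdR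
      linarith [tail_le d k ha hx]
  filter_upwards [hU, hL] with T h1 h2 x ha hx hc ht hk' hn
  have a1 := h1 x ha hx hc hk' hn
  have a2 := h2 x ha hx hc ht hn
  rw [abs_le]; constructor <;> linarith

theorem sign_of_wall {lam θ e my mc B KD : ℝ} (hl : lam ≠ 0) (hB : KD ≤ B * |lam|)
    (h : (θ = my ∧ e = mc) ∨ (θ < my ∧ e + B ≤ mc) ∨ (my < θ ∧ mc + B ≤ e)) :
    (lam * (θ - my) = 0 ∧ lam * (e - mc) = 0) ∨ (lam * (θ - my) < 0 ∧ lam * (e - mc) ≤ -KD) ∨
      (0 < lam * (θ - my) ∧ KD ≤ lam * (e - mc)) := by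
  rcases h with ⟨h1, h2⟩ | ⟨h1, h2⟩ | ⟨h1, h2⟩
  · left; simp [h1, h2]
  · rcases lt_or_gt_of_ne hl with h3 | h3
    · rw [abs_of_neg h3] at hB
      right; right; constructor <;> nlinarith
    · rw [abs_of_pos h3] at hB
      right; left; constructor <;> nlinarith
  · rcases lt_or_gt_of_ne hl with h3 | h3
    · rw [abs_of_neg h3] at hB
      right; left; constructor <;> nlinarith
    · rw [abs_of_pos h3] at hB
      right; right; constructor <;> nlinarith

end Vale.Agent.P072
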