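import Mathlib

namespace Vale.Agent.P072

open Filter Finset

theorem path_bound {α : Type*} (R : Finset (α × α)) {u v : α}
    (h : Relation.TransGen (fun a b => (a, b) ∈ R) u v) :
    ∃ p : ℝ, 0 ≤ p ∧ ∀ (φ : α → ℝ) (a Δ : ℝ), 0 ≤ Δ →
      (∀ r ∈ R, a < φ r.1 → φ r.1 - φ r.2 ≤ Δ) → max (φ u) a - max (φ v) a ≤ p * Δ := by
  have one : ∀ u v : α, (u, v) ∈ R → ∀ (φ : α → ℝ) (a Δ : ℝ), 0 ≤ Δ →
      (∀ r ∈ R, a < φ r.1 → φ r.1 - φ r.2 ≤ Δ) → max (φ u) a - max (φ v) a ≤ Δ := by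
    intro u v huv φ a Δ hΔ h
    rcases le_or_gt (φ u) a with h1 | h1
    · rw [max_eq_right h1]; linarith [le_max_right (φ v) a]
    · rw [max_eq_left h1.le]; linarith [le_max_left (φ v) a, h _ huv h1]
  induction h with
  | single h => exact ⟨1, zero_le_one, fun φ a Δ hΔ hh => by linarith [one _ _ h φ a Δ hΔ hh]⟩
  | tail _ h ih =>
    obtain ⟨p, hp, ih⟩ := ih
    exact ⟨p + 1, by linarith, fun φ a Δ hΔ hh => by
      linarith [one _ _ h φ a Δ hΔ hh, ih φ a Δ hΔ hh]⟩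

theorem flux {α : Type*} (R : Finset (α × α))
    (hwr : ∀ r ∈ R, Relation.TransGen (fun a b => (a, b) ∈ R) r.2 r.1) {ε : ℝ} (hε : 0 < ε) :
    ∃ E : ℝ, 0 < E ∧ ∀ (φ m : α → ℝ) (k : α × α → ℝ), (∀ a, 0 < m a) →
      (∀ r ∈ R, ε ≤ k r ∧ k r ≤ ε⁻¹) →
      (∀ r ∈ R, ∀ r' ∈ R, φ r.1 < φ r'.1 → E * m r.1 ≤ m r'.1) → ∀ r0 ∈ R,
      ∑ r ∈ R, k r * m r.1 * (φ r.2 - φ r.1) ≤ -(ε / 2 * m r0.1 * |φ r0.2 - φ r0.1|) := by
  have hp : ∀ᶠ p : ℝ in atTop, ∀ r ∈ R, ∀ (φ : α → ℝ) (a Δ : ℝ), 0 ≤ Δ →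
      (∀ r ∈ R, a < φ r.1 → φ r.1 - φ r.2 ≤ Δ) → max (φ r.2) a - max (φ r.1) a ≤ p * Δ := by
    rw [eventually_all_finset]
    intro r hr
    obtain ⟨p, -, h⟩ := path_bound R (hwr r hr)
    filter_upwards [eventually_ge_atTop p] with q hq φ a Δ hΔ hh
    exact (h φ a Δ hΔ hh).trans (mul_le_mul_of_nonneg_right hq hΔ)
  obtain ⟨p, hp, hp0⟩ := (hp.and (eventually_gt_atTop 0)).exists
  set n : ℝ := R.card + 1 with hn
  have hn0 : 0 < n := by positivity
  refine ⟨2 * n * p / ε ^ 2, by positivity, ?_⟩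
  intro φ m k hm hk hc r0 hr0
  set E := 2 * n * p / ε ^ 2 with hE
  have hE0 : 0 < E := by positivity
  set S := ∑ r ∈ R, k r * m r.1 * max (φ r.1 - φ r.2) 0 with hS
  have hterm : ∀ r ∈ R, 0 ≤ k r * m r.1 * max (φ r.1 - φ r.2) 0 := fun r hr =>
    mul_nonneg (mul_nonneg (hε.le.trans (hk r hr).1) (hm _).le) (le_max_right _ _)
  have hS0 : 0 ≤ S := Finset.sum_nonneg hterm
  have hdown : ∀ r ∈ R, ε * m r.1 * max (φ r.1 - φ r.2) 0 ≤ S := fun r hr =>
    (mul_le_mul_of_nonneg_right (mul_le_mul_of_nonneg_right (hk r hr).1 (hm _).le)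
      (le_max_right _ _)).trans (Finset.single_le_sum hterm hr)
  have hup : ∀ r ∈ R, ε⁻¹ * m r.1 * max (φ r.2 - φ r.1) 0 ≤ S / (2 * n) := by
    intro r hr
    have hmr := hm r.1
    have h1 := hp r hr φ (φ r.1) (S / (ε * E * m r.1)) (by positivity) (by
      intro r' hr' hlt
      rw [le_div_iff₀ (by positivity)]
      have h2 := hdown r' hr'
      have h3 := hc r hr r' hr' hlt
      have h4 : ε * (E * m r.1) * max (φ r'.1 - φ r'.2) 0 ≤ ε * m r'.1 * max (φ r'.1 - φ r'.2) 0 :=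
        mul_le_mul_of_nonneg_right (mul_le_mul_of_nonneg_left h3 hε.le) (le_max_right _ _)
      have h5 : (φ r'.1 - φ r'.2) * (ε * E * m r.1) ≤ max (φ r'.1 - φ r'.2) 0 * (ε * E * m r.1) :=
        mul_le_mul_of_nonneg_right (le_max_left _ _) (by positivity)
      linarith)
    have h2 : max (φ r.2 - φ r.1) 0 = max (φ r.2) (φ r.1) - max (φ r.1) (φ r.1) := by
      rw [max_self, ← max_sub_sub_right, sub_self]
    rw [h2]
    refine (mul_le_mul_of_nonneg_left h1 (by positivity)).trans (le_of_eq ?_)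
    rw [hE]; field_simp
  have hsum : ∑ r ∈ R, k r * m r.1 * (φ r.2 - φ r.1) ≤ R.card * (S / (2 * n)) - S := by
    have : ∑ r ∈ R, k r * m r.1 * (φ r.2 - φ r.1) ≤
        ∑ r ∈ R, (S / (2 * n) - k r * m r.1 * max (φ r.1 - φ r.2) 0) := by
      refine Finset.sum_le_sum fun r hr => ?_
      have h1 := hup r hr
      have h2 : k r * m r.1 * max (φ r.2 - φ r.1) 0 ≤ ε⁻¹ * m r.1 * max (φ r.2 - φ r.1) 0 :=
        mul_le_mul_of_nonneg_right (mul_le_mul_of_nonneg_right (hk r hr).2 (hm _).le)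
          (le_max_right _ _)
      have h3 : φ r.2 - φ r.1 = max (φ r.2 - φ r.1) 0 - max (φ r.1 - φ r.2) 0 := by
        rcases le_total (φ r.1) (φ r.2) with h | h
        · rw [max_eq_left (by linarith), max_eq_right (by linarith)]; ring
        · rw [max_eq_right (by linarith), max_eq_left (by linarith)]; ring
      conv_lhs => rw [h3]
      linarith
    rw [Finset.sum_sub_distrib] at this
    simpa using this
  have h6 : R.card * (S / (2 * n)) ≤ S / 2 := by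
    have : (R.card : ℝ) * (S / (2 * n)) ≤ n * (S / (2 * n)) :=
      mul_le_mul_of_nonneg_right (by linarith) (by positivity)
    refine this.trans (le_of_eq ?_)
    field_simp
  have h7 : ε * m r0.1 * |φ r0.2 - φ r0.1| ≤ S := by
    rcases le_total (φ r0.1) (φ r0.2) with h | h
    · have h1 := hup r0 hr0
      rw [max_eq_left (by linarith)] at h1
      rw [abs_of_nonneg (by linarith)]
      have h2 : ε ≤ ε⁻¹ := (hk r0 hr0).1.trans (hk r0 hr0).2
      have h3 : ε * m r0.1 * (φ r0.2 - φ r0.1) ≤ ε⁻¹ * m r0.1 * (φ r0.2 - φ r0.1) :=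
        mul_le_mul_of_nonneg_right (mul_le_mul_of_nonneg_right h2 (hm _).le) (by linarith)
      have h4 : S / (2 * n) ≤ S := by
        apply div_le_self hS0
        have : (0 : ℝ) ≤ R.card := Nat.cast_nonneg _
        linarith
      linarith
    · have h1 := hdown r0 hr0
      rw [max_eq_left (by linarith)] at h1
      rw [abs_of_nonpos (by linarith)]
      linarith
  linarith

end Vale.Agent.P072
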