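import Vale.Agent.P072.Step

namespace Vale.Agent.P072

open Filter Finset

def up (k : ℕ) (σ : Equiv.Perm (Fin (k + 1))) (x : Fin (k + 1) → ℝ) : ℕ → ℝ :=
  fun j => x (σ ⟨min j k, by omega⟩)

theorem up_val (k : ℕ) (σ : Equiv.Perm (Fin (k + 1))) (x : Fin (k + 1) → ℝ) (j : Fin (k + 1)) :
    up k σ x j = x (σ j) := by
  unfold up
  congr 2
  ext
  simp only
  omega

theorem dot_up (k : ℕ) (σ : Equiv.Perm (Fin (k + 1))) (x : Fin (k + 1) → ℝ) (y : ℕ → ℝ) :
    dot (k + 1) y (up k σ x) = ∑ i, y (σ.symm i) * x i := by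
  unfold dot
  rw [← Fin.sum_univ_eq_sum_range (fun j => y j * up k σ x j) (k + 1),
    ← Equiv.sum_comp σ (fun i => y (σ.symm i) * x i)]
  refine Finset.sum_congr rfl fun j _ => ?_
  rw [up_val, Equiv.symm_apply_apply]

theorem dot_comm (d : ℕ) (a b : ℕ → ℝ) : dot d a b = dot d b a := by
  unfold dot
  exact Finset.sum_congr rfl fun j _ => mul_comm _ _

theorem up_anti (k : ℕ) (σ : Equiv.Perm (Fin (k + 1))) (x : Fin (k + 1) → ℝ)
    (h : Antitone (x ∘ σ)) : Antitone (up k σ x) := by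
  intro a b hab
  exact h (show (⟨min a k, by omega⟩ : Fin (k + 1)) ≤ ⟨min b k, by omega⟩ from
    min_le_min_right k hab)

theorem exists_sort {n : ℕ} (w x : Fin n → ℝ) (h : ∀ i j, w j < w i → x j ≤ x i) :
    ∃ τ : Equiv.Perm (Fin n), Antitone (w ∘ τ) ∧ Antitone (x ∘ τ) := by
  let f : Fin n → ℝ ×ₗ ℝ := fun i => toLex (-w i, -x i)
  have hm := Tuple.monotone_sort f
  refine ⟨Tuple.sort f, ?_, ?_⟩
  · intro a b hab
    have := hm hab
    simp only [Function.comp, f, Prod.Lex.toLex_le_toLex] at this ⊢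
    rcases this with h1 | h1
    · linarith
    · linarith [h1.1]
  · intro a b hab
    have := hm hab
    simp only [Function.comp, f, Prod.Lex.toLex_le_toLex] at this ⊢
    rcases this with h1 | h1
    · exact h _ _ (by linarith)
    · linarith [h1.2]

theorem polytope (d : ℕ) (Nn : Set (Fin d → ℝ)) (hN : Nn.Finite) (δ : ℝ) :
    ∃ W : Set ((Fin d → ℝ) × (ℝ → ℝ)), W.Finite ∧ (∀ w ∈ W, ContDiff ℝ 1 w.2) ∧
      (∀ x : Fin d → ℝ, (∀ i, 0 < x i) → ∀ᶠ T in atTop, ∀ w ∈ W, ∑ i, w.1 i * x i < w.2 T) ∧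
      ∃ D0 : ℝ, ∀ᶠ T in atTop, ∀ x : Fin d → ℝ, (∀ i, 0 < x i) →
        (∀ w ∈ W, ∑ i, w.1 i * x i ≤ w.2 T) → (∀ i, |Real.log (x i)| ≤ T * D0) ∧
        ∀ w ∈ W, w.2 T ≤ ∑ i, w.1 i * x i → ∀ n ∈ Nn, ∑ i, n i * w.1 i < 0 →
          ∑ i, n i * Real.log (x i) < -δ := by
  classical
  rcases d with _ | k
  · exact ⟨∅, Set.finite_empty, by simp, by simp, 0, by simp⟩
  have hK : ∀ᶠ K : ℝ in atTop, ∀ n ∈ Nn, ∑ i, |n i| + 1 ≤ K := by
    rw [hN.eventually_all]; intro n _; exact eventually_ge_atTop _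
  obtain ⟨K, hK, hK0⟩ := (hK.and (eventually_ge_atTop 0)).exists
  obtain ⟨N, D0, G⟩ := good_all k (Nat.lt_succ_self k)
    (Set.image2 (fun n σ => up k σ n) Nn Set.univ) (hN.image2 _ Set.finite_univ) K hK0
  set W : Set ((Fin (k + 1) → ℝ) × (ℝ → ℝ)) := Set.image2
    (fun (ν : Node) (σ : Equiv.Perm (Fin (k + 1))) => (fun i => ν.y (σ.symm i), ν.H)) N Set.univ
    with hW
  have hup : ∀ (σ : Equiv.Perm (Fin (k + 1))) (x : Fin (k + 1) → ℝ), (∀ i, 0 < x i) →
      ∀ j, 0 < up k σ x j := fun σ x hx j => hx _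
  have hcons : ∀ T (σ : Equiv.Perm (Fin (k + 1))) (x : Fin (k + 1) → ℝ),
      (∀ w ∈ W, ∑ i, w.1 i * x i ≤ w.2 T) → ∀ ν ∈ N, dot (k + 1) ν.y (up k σ x) ≤ ν.H T := by
    intro T σ x h ν hν
    rw [dot_up]
    exact h _ (Set.mem_image2_of_mem hν (Set.mem_univ σ))
  refine ⟨W, G.fin.image2 _ Set.finite_univ, ?_, ?_, D0, ?_⟩
  · rintro w ⟨ν, hν, σ, -, rfl⟩
    exact G.smooth ν hν
  · intro x hx
    rw [(G.fin.image2 _ Set.finite_univ).eventually_all]
    rintro w ⟨ν, hν, σ, -, rfl⟩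
    filter_upwards [G.exh ν hν _ (hup σ x hx) 0 le_rfl] with T hT
    rw [dot_up] at hT
    simpa using hT
  · have hb := (G.fin.eventually_all).mpr fun ν hν => G.box ν hν 0 le_rfl
    filter_upwards [G.box0, hb, eventually_gt_atTop δ, eventually_ge_atTop 0] with
      T h0 h1 hT hT0 x hx hc
    constructor
    · obtain ⟨τ, -, hτ⟩ := exists_sort (fun _ => 0) x (fun i j h => absurd h (lt_irrefl _))
      intro i
      have := h0 _ (up_anti k τ x hτ) (hup τ x hx) (hcons T τ x hc) (τ.symm i) (by omega)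
      rwa [up_val, Equiv.apply_symm_apply] at this
    · rintro w ⟨ν, hν, σ, -, rfl⟩ hact n hn hneg
      simp only at hact hneg
      obtain ⟨τ, hτ1, hτ2⟩ := exists_sort (fun i => ν.y (σ.symm i)) x (by
        intro i j hij
        have h2 := hc _ (Set.mem_image2_of_mem hν (Set.mem_univ (σ.trans (Equiv.swap i j))))
        simp only at h2
        have hne : i ≠ j := by rintro rfl; exact lt_irrefl _ hij
        have h3 : ∑ l, ν.y (σ.symm l) * x l - ∑ l, ν.y ((σ.trans (Equiv.swap i j)).symm l) * x l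
            = (ν.y (σ.symm i) - ν.y (σ.symm j)) * (x i - x j) := by
          rw [← Finset.sum_sub_distrib, Finset.sum_eq_add_of_mem i j (mem_univ _) (mem_univ _) hne]
          · simp; ring
          · intro l _ hl
            simp [Equiv.swap_apply_of_ne_of_ne hl.1 hl.2]
        by_contra hlt
        push Not at hlt
        nlinarith)
      have hσ : Antitone ((fun i => ν.y (σ.symm i)) ∘ σ) := by
        intro a b hab
        simp only [Function.comp, Equiv.symm_apply_apply]
        exact G.anti ν hν hab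
      have heq := Tuple.unique_antitone hτ1 hσ
      have hy : ∀ i, ν.y (τ.symm i) = ν.y (σ.symm i) := by
        intro i
        have := congrFun heq (τ.symm i)
        simpa using this.symm
      have hbx := h1 ν hν _ (up_anti k τ x hτ2) (hup τ x hx) (hcons T τ x hc) (by
        rw [dot_up]; simp only [hy]; simpa using hact)
      have hZ := G.Z ν hν (up k τ n) (Set.mem_image2_of_mem hn (Set.mem_univ τ))
      rw [dot_comm _ _ ν.y, dot_comm _ _ ν.c, dot_up, dot_up] at hZ
      simp only [hy] at hZ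
      have hneg' : ∑ i, ν.y (σ.symm i) * n i < 0 := by
        simpa only [mul_comm] using hneg
      have hc2 : ∑ i, ν.c (τ.symm i) * n i ≤ -(K * ν.D) := by
        rcases hZ with h | h | h
        · linarith [h.1]
        · exact h.2
        · linarith [h.1]
      have hD := G.D1 ν hν
      have h5 : ∑ i, n i * Real.log (x i) ≤
          ∑ i, (T * (ν.c (τ.symm i) * n i) + |n i| * (T * ν.D)) := by
        refine Finset.sum_le_sum fun i _ => ?_
        have h6 := hbx (τ.symm i) (by omega)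
        rw [up_val, Equiv.apply_symm_apply] at h6
        have h7 : n i * (Real.log (x i) - T * ν.c (τ.symm i)) ≤ |n i| * (T * ν.D) := by
          refine (le_abs_self _).trans ?_
          rw [abs_mul]
          exact mul_le_mul_of_nonneg_left h6 (abs_nonneg _)
        linarith
      rw [Finset.sum_add_distrib, ← Finset.mul_sum, ← Finset.sum_mul] at h5
      have h8 := mul_le_mul_of_nonneg_left hc2 hT0
      have h9 := mul_le_mul_of_nonneg_right (hK n hn) (show 0 ≤ T * ν.D by positivity)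
      have h10 : T * 1 ≤ T * ν.D := mul_le_mul_of_nonneg_left hD hT0
      linarith

end Vale.Agent.P072
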