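import Vale.Agent.P072.Ode
import Vale.Agent.P072.Flux
import Vale.Agent.P072.Poly

namespace Vale.Agent.P072

open Filter MeasureTheory Set

variable {d : ℕ}

abbrev Rx (d : ℕ) := (Fin d → ℕ) × (Fin d → ℕ)

def vec (r : Rx d) : Fin d → ℝ := fun i => (r.2 i : ℝ) - r.1 i

def mon (y : Fin d → ℕ) (x : Fin d → ℝ) : ℝ := ∏ i, x i ^ y i

def fld (R : Finset (Rx d)) (k : Rx d → ℝ) (x : Fin d → ℝ) : Fin d → ℝ :=
  ∑ r ∈ R, (k r * mon r.1 x) • vec r

theorem mon_smooth (y : Fin d → ℕ) : ContDiff ℝ 1 (mon y) := by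
  unfold mon
  fun_prop

theorem fld_bounds (R : Finset (Rx d)) (A : ℝ) (Q : Set (Fin d → ℝ)) (hQ : IsCompact Q)
    (hQc : Convex ℝ Q) :
    ∃ L M : ℝ, 0 < L ∧ 0 ≤ M ∧ ∀ k : Rx d → ℝ, (∀ r ∈ R, |k r| ≤ A) → ∀ x ∈ Q,
      ‖fld R k x‖ ≤ M ∧ ∀ y ∈ Q, ‖fld R k x - fld R k y‖ ≤ L * ‖x - y‖ := by
  have h1 : ∀ r : Rx d, ∃ K : NNReal, LipschitzOnWith K (mon r.1) Q := fun r =>
    (mon_smooth r.1).contDiffOn.exists_lipschitzOnWith one_ne_zero hQc hQ
  have h2 : ∀ r : Rx d, ∃ C : ℝ, ∀ x ∈ Q, ‖mon r.1 x‖ ≤ C := fun r =>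
    hQ.exists_bound_of_continuousOn (mon_smooth r.1).continuous.continuousOn
  choose K hK using h1
  choose C hC using h2
  refine ⟨∑ r ∈ R, |A| * K r * ‖vec r‖ + 1, ∑ r ∈ R, |A| * |C r| * ‖vec r‖, by positivity,
    by positivity, fun k hk x hx => ⟨?_, fun y hy => ?_⟩⟩
  · refine (norm_sum_le _ _).trans (Finset.sum_le_sum fun r hr => ?_)
    rw [norm_smul, norm_mul]
    refine mul_le_mul_of_nonneg_right ?_ (norm_nonneg _)
    exact mul_le_mul ((hk r hr).trans (le_abs_self _)) ((hC r x hx).trans (le_abs_self _))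
      (norm_nonneg _) (abs_nonneg _)
  · unfold fld
    rw [← Finset.sum_sub_distrib, add_mul, Finset.sum_mul]
    refine le_trans ?_ (le_add_of_nonneg_right (by positivity))
    refine (norm_sum_le _ _).trans (Finset.sum_le_sum fun r hr => ?_)
    rw [← sub_smul, ← mul_sub, norm_smul, norm_mul]
    have h3 := (hK r).dist_le_mul x hx y hy
    rw [dist_eq_norm, dist_eq_norm] at h3
    have h4 : ‖k r‖ * ‖mon r.1 x - mon r.1 y‖ ≤ |A| * (K r * ‖x - y‖) :=
      mul_le_mul ((hk r hr).trans (le_abs_self _)) h3 (norm_nonneg _) (abs_nonneg _)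
    have h5 := mul_le_mul_of_nonneg_right h4 (norm_nonneg (vec r))
    linarith

theorem coef_int {k : ℝ → ℝ} (hm : Measurable k) {A : ℝ} (hk : ∀ t, |k t| ≤ A) (y : Fin d → ℕ)
    {z : ℝ → Fin d → ℝ} {a b : ℝ} (hz : ContinuousOn z (uIcc a b)) :
    IntervalIntegrable (fun s => k s * mon y (z s)) volume a b := by
  refine IntervalIntegrable.mul_continuousOn ?_ ((mon_smooth y).continuous.comp_continuousOn hz)
  refine (intervalIntegrable_const (c := A)).mono_fun hm.aestronglyMeasurable ?_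
  exact Eventually.of_forall fun t => (hk t).trans (le_abs_self _)

theorem fld_int (R : Finset (Rx d)) {k : Rx d → ℝ → ℝ} (hm : ∀ r ∈ R, Measurable (k r)) {A : ℝ}
    (hk : ∀ r ∈ R, ∀ t, |k r t| ≤ A) {z : ℝ → Fin d → ℝ} {a b : ℝ}
    (hz : ContinuousOn z (uIcc a b)) :
    IntervalIntegrable (fun s => fld R (fun r => k r s) (z s)) volume a b ∧
      (∫ s in a..b, fld R (fun r => k r s) (z s)) ∈ Submodule.span ℝ (vec '' (R : Set (Rx d))) := by
  have h1 : ∀ r ∈ R, IntervalIntegrable (fun s => (k r s * mon r.1 (z s)) • vec r) volume a b := by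
    intro r hr
    have := coef_int (hm r hr) (hk r hr) r.1 hz
    exact ⟨this.1.smul_const _, this.2.smul_const _⟩
  unfold fld
  constructor
  · have := IntervalIntegrable.sum R h1
    rwa [Finset.sum_fn] at this
  · rw [intervalIntegral.integral_finsetSum h1]
    refine Submodule.sum_mem _ fun r hr => ?_
    rw [intervalIntegral.integral_smul_const]
    exact Submodule.smul_mem _ _ (Submodule.subset_span ⟨r, hr, rfl⟩)

noncomputable def lin (w : Fin d → ℝ) : (Fin d → ℝ) →L[ℝ] ℝ :=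
  ∑ i, w i • ContinuousLinearMap.proj i

theorem lin_apply (w x : Fin d → ℝ) : lin w x = ∑ i, w i * x i := by
  simp [lin]

theorem lin_fld (R : Finset (Rx d)) (k : Rx d → ℝ) (w x : Fin d → ℝ) :
    lin w (fld R k x) = ∑ r ∈ R, k r * mon r.1 x *
      (∑ i, w i * (r.2 i : ℝ) - ∑ i, w i * (r.1 i : ℝ)) := by
  unfold fld
  rw [map_sum]
  refine Finset.sum_congr rfl fun r _ => ?_
  rw [map_smul, lin_apply, smul_eq_mul, ← Finset.sum_sub_distrib]
  simp only [vec, mul_sub]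

theorem log_mon (y : Fin d → ℕ) {x : Fin d → ℝ} (hx : ∀ i, 0 < x i) :
    mon y x = Real.exp (∑ i, (y i : ℝ) * Real.log (x i)) := by
  unfold mon
  rw [Real.exp_sum]
  refine Finset.prod_congr rfl fun i _ => ?_
  rw [← Real.log_pow, Real.exp_log (pow_pos (hx i) _)]

/-- The dissipation estimate in the form used along trajectories. -/
theorem dissip (R : Finset (Rx d))
    (hwr : ∀ r ∈ R, Relation.TransGen (fun a b => (a, b) ∈ R) r.2 r.1) {ε : ℝ} (hε : 0 < ε) :
    ∃ (Nn : Set (Fin d → ℝ)) (δ : ℝ), Nn.Finite ∧ ∀ (w x : Fin d → ℝ) (k : Rx d → ℝ) (a : ℝ),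
      0 < a → (∀ i, a ≤ x i) → (∀ r ∈ R, ε ≤ k r ∧ k r ≤ ε⁻¹) →
      (∀ n ∈ Nn, ∑ i, n i * w i < 0 → ∑ i, n i * Real.log (x i) < -δ) → ∀ r ∈ R,
      lin w (fld R k x) ≤ -(ε / 2 * mon r.1 (fun _ => a) * |lin w (vec r)|) := by
  obtain ⟨E, hE, h⟩ := flux R hwr hε
  refine ⟨Set.image2 (fun r r' : Rx d => fun i => (r.1 i : ℝ) - r'.1 i) R R, Real.log E,
    (R.finite_toSet).image2 _ R.finite_toSet, ?_⟩
  intro w x k a ha hx hk hc r hr
  have hx0 : ∀ i, 0 < x i := fun i => ha.trans_le (hx i)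
  have h1 := h (fun y => ∑ i, w i * (y i : ℝ)) (fun y => mon y x) k
    (fun y => Finset.prod_pos fun i _ => pow_pos (hx0 i) _) hk (by
      intro r hr r' hr' hlt
      have h2 := hc _ (Set.mem_image2_of_mem hr hr') (by
        simp only [sub_mul, Finset.sum_sub_distrib]
        simp only [mul_comm (w _)] at hlt
        linarith)
      simp only [sub_mul, Finset.sum_sub_distrib] at h2
      rw [log_mon _ hx0, log_mon _ hx0, ← Real.exp_log hE, ← Real.exp_add]
      exact Real.exp_le_exp.mpr (by linarith)) r hr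
  rw [lin_fld]
  refine h1.trans (neg_le_neg ?_)
  have h3 : lin w (vec r) = ∑ i, w i * (r.2 i : ℝ) - ∑ i, w i * (r.1 i : ℝ) := by
    rw [lin_apply, ← Finset.sum_sub_distrib]; simp only [vec, mul_sub]
  rw [h3]
  refine mul_le_mul_of_nonneg_right (mul_le_mul_of_nonneg_left ?_ (by positivity)) (abs_nonneg _)
  exact Finset.prod_le_prod (fun i _ => by positivity)
    (fun i _ => pow_le_pow_left₀ ha.le (hx i) _)

end Vale.Agent.P072
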