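import Vale.Agent.P072.Field

namespace Vale.Agent.P072

open Filter MeasureTheory Set

variable {d : ℕ}

theorem lin_span_zero (R : Finset (Rx d)) (w : Fin d → ℝ) (h : ∀ r ∈ R, lin w (vec r) = 0)
    {v : Fin d → ℝ} (hv : v ∈ Submodule.span ℝ (vec '' (R : Set (Rx d)))) : lin w v = 0 := by
  have : Submodule.span ℝ (vec '' (R : Set (Rx d))) ≤ LinearMap.ker (lin w).toLinearMap := by
    rw [Submodule.span_le]
    rintro _ ⟨r, hr, rfl⟩
    exact h r hr
  exact this hv

theorem abs_log_le {x B : ℝ} (hx : 0 < x) (h : |Real.log x| ≤ B) :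
    Real.exp (-B) ≤ x ∧ x ≤ Real.exp B := by
  rw [abs_le] at h
  exact ⟨(Real.le_log_iff_exp_le hx).mp h.1, (Real.log_le_iff_le_exp hx).mp h.2⟩

theorem main (R : Finset (Rx d))
    (hwr : ∀ r ∈ R, Relation.TransGen (fun a b => (a, b) ∈ R) r.2 r.1) {ε : ℝ} (hε : 0 < ε)
    (c : Fin d → ℝ) (hc : ∀ i, 0 < c i) :
    ∃ β : ℝ, ∀ k : Rx d → ℝ → ℝ, (∀ r ∈ R, Measurable (k r)) →
      (∀ r ∈ R, ∀ t, ε ≤ k r t ∧ k r t ≤ ε⁻¹) → ∀ x0 : Fin d → ℝ, (∀ i, 0 < x0 i) →
      x0 - c ∈ Submodule.span ℝ (vec '' (R : Set (Rx d))) →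
      ∃ x : ℝ → Fin d → ℝ, Continuous x ∧
        (∀ t, 0 ≤ t → x t = x0 + ∫ s in (0:ℝ)..t, fld R (fun r => k r s) (x s)) ∧
        (∀ t, 0 ≤ t → (∀ i, 0 < x t i) ∧ x t - c ∈ Submodule.span ℝ (vec '' (R : Set (Rx d)))) ∧
        ∃ t0, ∀ t, t0 ≤ t → ∀ i, Real.exp (-β) ≤ x t i ∧ x t i ≤ Real.exp β := by
  obtain ⟨Nn, δ, hNn, hdis⟩ := dissip R hwr hε
  obtain ⟨W, hW, hsm, hexh, D0, hbox⟩ := polytope d Nn hNn δ
  obtain ⟨T1, hT1⟩ := eventually_atTop.mp ((hexh c hc).and (hbox.and (eventually_ge_atTop 0)))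
  refine ⟨T1 * D0, fun k hkm hk x0 hx0 hx0c => ?_⟩
  have hk' : ∀ r ∈ R, ∀ t, |k r t| ≤ ε⁻¹ := fun r hr t => by
    rw [abs_of_pos (hε.trans_le (hk r hr t).1)]; exact (hk r hr t).2
  obtain ⟨T2, hT2, hT12⟩ := ((hexh x0 hx0).and (eventually_ge_atTop T1)).exists
  set B := T2 * |D0| with hB
  set a := Real.exp (-B) / 2 with ha
  set b := 2 * Real.exp B with hb
  have ha0 : 0 < a := by positivity
  have hT10 : 0 ≤ T1 := (hT1 T1 le_rfl).2.2
  have hB0 : 0 ≤ B := mul_nonneg (hT10.trans hT12) (abs_nonneg _)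
  have hab : a ≤ b := by
    have := Real.exp_le_exp.mpr (show -B ≤ B by linarith)
    linarith [Real.exp_pos B]
  have hin : ∀ T, T1 ≤ T → T ≤ T2 → ∀ x : Fin d → ℝ, (∀ i, 0 < x i) →
      (∀ w ∈ W, ∑ i, w.1 i * x i ≤ w.2 T) → ∀ i, a < x i ∧ x i < b := by
    intro T h1 h2 x hx hcon i
    have h3 := ((hT1 T h1).2.1 x hx hcon).1 i
    have h4 : T * D0 ≤ B := (mul_le_mul_of_nonneg_left (le_abs_self _) (hT10.trans h1)).trans
      (mul_le_mul_of_nonneg_right h2 (abs_nonneg _))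
    obtain ⟨h5, h6⟩ := abs_log_le (hx i) (h3.trans h4)
    constructor <;> linarith [Real.exp_pos B, Real.exp_pos (-B)]
  let cl : (Fin d → ℝ) → Fin d → ℝ := fun x i => max a (min (x i) b)
  have hclc : Continuous cl := by fun_prop
  have hclQ : ∀ x, cl x ∈ Icc (fun _ : Fin d => a) (fun _ => b) := fun x =>
    ⟨fun i => le_max_left _ _, fun i => max_le hab (min_le_right _ _)⟩
  have hcll : ∀ x y, ‖cl x - cl y‖ ≤ ‖x - y‖ := by
    intro x y
    refine (pi_norm_le_iff_of_nonneg (norm_nonneg _)).mpr fun i => ?_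
    refine le_trans ?_ (norm_le_pi_norm (x - y) i)
    simp only [cl, Pi.sub_apply, Real.norm_eq_abs]
    refine (abs_max_sub_max_le_max _ _ _ _).trans (max_le (by simp) ?_)
    refine (abs_min_sub_min_le_max _ _ _ _).trans (max_le le_rfl (by simp))
  have hcle : ∀ x : Fin d → ℝ, (∀ i, a < x i ∧ x i < b) → cl x = x := by
    intro x hx; funext i
    simp only [cl]
    rw [min_eq_left (hx i).2.le, max_eq_right (hx i).1.le]
  obtain ⟨L, M, hL, hM, hLM⟩ := fld_bounds R ε⁻¹ (Icc (fun _ : Fin d => a) (fun _ => b))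
    isCompact_Icc (convex_Icc _ _)
  have hint : ∀ x : ℝ → Fin d → ℝ, Continuous x → ∀ s t,
      IntervalIntegrable (fun s => fld R (fun r => k r s) (cl (x s))) volume s t ∧
      (∫ s in s..t, fld R (fun r => k r s) (cl (x s))) ∈
        Submodule.span ℝ (vec '' (R : Set (Rx d))) := fun x hx s t =>
    fld_int R hkm hk' (z := fun s => cl (x s)) (hclc.comp hx).continuousOn
  obtain ⟨x, hxc, hxe⟩ := exists_sol (fun s x => fld R (fun r => k r s) (cl x)) hL hM
    (fun s x y => ((hLM _ (fun r hr => hk' r hr s) _ (hclQ x)).2 _ (hclQ y)).trans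
      (mul_le_mul_of_nonneg_left (hcll x y) hL.le))
    (fun s x => (hLM _ (fun r hr => hk' r hr s) _ (hclQ x)).1)
    (fun x hx s t => (hint x hx s t).1) x0
  have hcls : ∀ t, 0 ≤ t → x t - c ∈ Submodule.span ℝ (vec '' (R : Set (Rx d))) := by
    intro t ht
    rw [hxe t ht, add_sub_right_comm]
    exact Submodule.add_mem _ hx0c (hint x hxc 0 t).2
  have hη : ∀ᶠ η : ℝ in nhdsWithin 0 (Ioi 0), ∀ w ∈ W, ∀ r ∈ R, lin w.1 (vec r) ≠ 0 →
      η ≤ ε / 2 * mon r.1 (fun _ => a) * |lin w.1 (vec r)| := by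
    rw [hW.eventually_all]; intro w _
    rw [eventually_all_finset]; intro r _
    by_cases h : lin w.1 (vec r) = 0
    · exact Eventually.of_forall fun _ hh => absurd h hh
    · have h1 : 0 < mon r.1 (fun _ : Fin d => a) := Finset.prod_pos fun i _ => pow_pos ha0 _
      have h2 : 0 < ε / 2 * mon r.1 (fun _ => a) * |lin w.1 (vec r)| := by positivity
      exact ((eventually_le_nhds h2).filter_mono nhdsWithin_le_nhds).mono fun _ hh _ => hh
  obtain ⟨η, hη, hη0⟩ := (hη.and self_mem_nhdsWithin).exists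
  replace hη0 : 0 < η := hη0
  have hΛ : ∀ᶠ Λ : ℝ in atTop, ∀ w ∈ W, ∀ s ∈ Icc T1 T2, ∀ t ∈ Icc T1 T2,
      |w.2 s - w.2 t| ≤ Λ * |s - t| := by
    rw [hW.eventually_all]; intro w hw
    obtain ⟨K, hK⟩ := (hsm w hw).contDiffOn.exists_lipschitzOnWith one_ne_zero
      (convex_Icc T1 T2) isCompact_Icc
    filter_upwards [eventually_ge_atTop (K : ℝ)] with Λ hΛ s hs t ht
    exact (hK.dist_le_mul s hs t ht).trans (mul_le_mul_of_nonneg_right hΛ (abs_nonneg _))
  obtain ⟨Λ, hΛ, hΛ0⟩ := (hΛ.and (eventually_gt_atTop 0)).exists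
  set κ := η / Λ with hκ
  have hκ0 : 0 < κ := by positivity
  let τ : ℝ → ℝ := fun t => max T1 (T2 - κ * t)
  have hτc : Continuous τ := by fun_prop
  have hτ : ∀ t, 0 ≤ t → τ t ∈ Icc T1 T2 := fun t ht =>
    ⟨le_max_left _ _, max_le hT12 (by nlinarith)⟩
  have hstay := stay W hW (fun w t => ∑ i, w.1 i * x t i - w.2 (τ t)) (fun t => ∀ i, a ≤ x t i)
    (by
      simp only [Set.ofPred_forall]
      exact isClosed_iInter fun i => isClosed_le continuous_const (by fun_prop))
    (by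
      have h0 : x 0 = x0 := by simpa using hxe 0 le_rfl
      intro i
      rw [h0]
      exact (hin T2 hT12 le_rfl x0 hx0 (fun w hw => (hT2 w hw).le) i).1.le)
    (fun w hw => Continuous.sub (by fun_prop) ((hsm w hw).continuous.comp hτc))
    (by
      have h0 : x 0 = x0 := by simpa using hxe 0 le_rfl
      intro w hw
      simp only [τ, mul_zero, sub_zero, max_eq_right hT12, h0]
      linarith [hT2 w hw])
    (by
      intro t ht hp hcon
      have hpos : ∀ i, 0 < x t i := fun i => ha0.trans_le (hp i)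
      have hcon' : ∀ w ∈ W, ∑ i, w.1 i * x t i ≤ w.2 (τ t) := fun w hw => by
        linarith [hcon w hw]
      have hin' := hin _ (hτ t ht).1 (hτ t ht).2 _ hpos hcon'
      have hnb : ∀ᶠ s in nhds t, ∀ i, a < x s i ∧ x s i < b := by
        rw [eventually_all]
        intro i
        have hci : ContinuousAt (fun s => x s i) t := by fun_prop
        exact (continuousAt_const.eventually_lt hci (hin' i).1).and
          (hci.eventually_lt continuousAt_const (hin' i).2)
      refine ⟨(hnb.filter_mono nhdsWithin_le_nhds).mono fun s hs i => (hs i).1.le, ?_⟩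
      intro w hw hact
      have hcomp := ((hT1 _ (hτ t ht).1).2.1 _ hpos hcon').2 w hw (by linarith)
      have hnb2 : ∀ᶠ s in nhds t, ∀ n ∈ Nn, ∑ i, n i * w.1 i < 0 →
          ∑ i, n i * Real.log (x s i) < -δ := by
        rw [hNn.eventually_all]
        intro n hn
        by_cases h : ∑ i, n i * w.1 i < 0
        · have hci : ContinuousAt (fun s => ∑ i, n i * Real.log (x s i)) t := by
            refine tendsto_finsetSum _ fun i _ => ?_
            exact continuousAt_const.mul (ContinuousAt.log (by fun_prop) (hpos i).ne')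
          exact (hci.eventually_lt continuousAt_const (hcomp n hn h)).mono fun s hs _ => hs
        · exact Eventually.of_forall fun s hh => absurd hh h
      obtain ⟨r, hr, hr0⟩ : ∃ r ∈ R, lin w.1 (vec r) ≠ 0 := by
        by_contra hno
        push Not at hno
        have h1 := lin_span_zero R w.1 hno (hcls t ht)
        rw [map_sub, lin_apply, lin_apply] at h1
        have h2 := (hT1 _ (hτ t ht).1).1 w hw
        linarith
      obtain ⟨θ, hθ, hball⟩ := Metric.eventually_nhds_iff.mp (hnb.and hnb2)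
      filter_upwards [Ioo_mem_nhdsGT (show t < t + θ by linarith)] with s hs
      have hs0 : 0 ≤ s := ht.trans hs.1.le
      have h1 : x s - x t = ∫ u in t..s, fld R (fun r => k r u) (cl (x u)) := by
        rw [hxe s hs0, hxe t ht, add_sub_add_left_eq_sub]
        exact intervalIntegral.integral_interval_sub_left (hint x hxc 0 s).1 (hint x hxc 0 t).1
      have h2 : lin w.1 (x s - x t) ≤ ∫ _ in t..s, -η := by
        rw [h1, ← (lin w.1).intervalIntegral_comp_comm (hint x hxc t s).1]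
        refine intervalIntegral.integral_mono_on hs.1.le
          ⟨(lin w.1).integrable_comp (hint x hxc t s).1.1,
            (lin w.1).integrable_comp (hint x hxc t s).1.2⟩ intervalIntegrable_const ?_
        intro u hu
        obtain ⟨b1, b2⟩ := hball (y := u) (by
          rw [Real.dist_eq, abs_lt]; constructor <;> linarith [hu.1, hu.2, hs.2])
        rw [hcle _ b1]
        have := hdis w.1 (x u) (fun r => k r u) a ha0 (fun i => (b1 i).1.le)
          (fun r hr => hk r hr u) b2 r hr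
        linarith [hη w hw r hr hr0]
      rw [map_sub, lin_apply, lin_apply, intervalIntegral.integral_const, smul_eq_mul] at h2
      have h3 := hΛ w hw _ (hτ t ht) _ (hτ s hs0)
      have h4 : |τ t - τ s| ≤ κ * (s - t) := by
        refine (abs_max_sub_max_le_max _ _ _ _).trans (max_le ?_ ?_)
        · simp only [sub_self, abs_zero]; nlinarith [hs.1]
        · rw [abs_le]; constructor <;> nlinarith [hs.1]
      have h5 : Λ * (κ * (s - t)) = η * (s - t) := by rw [hκ]; field_simp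
      have h6 := mul_le_mul_of_nonneg_left h4 hΛ0.le
      have h7 := le_abs_self (w.2 (τ t) - w.2 (τ s))
      linarith)
  have hall : ∀ t, 0 ≤ t → (∀ i, 0 < x t i) ∧ ∀ w ∈ W, ∑ i, w.1 i * x t i ≤ w.2 (τ t) :=
    fun t ht => ⟨fun i => ha0.trans_le ((hstay t ht).1 i), fun w hw => by
      linarith [(hstay t ht).2 w hw]⟩
  refine ⟨x, hxc, fun t ht => ?_, fun t ht => ⟨(hall t ht).1, hcls t ht⟩,
    max 0 ((T2 - T1) / κ), fun t ht i => ?_⟩
  · rw [hxe t ht]
    congr 1
    refine intervalIntegral.integral_congr fun s hs => ?_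
    rw [uIcc_of_le ht] at hs
    rw [hcle _ (hin _ (hτ s hs.1).1 (hτ s hs.1).2 _ (hall s hs.1).1 (hall s hs.1).2)]
  · have ht0 : 0 ≤ t := (le_max_left _ _).trans ht
    have ht1 : (T2 - T1) / κ ≤ t := (le_max_right _ _).trans ht
    rw [div_le_iff₀ hκ0] at ht1
    have h1 : τ t = T1 := max_eq_left (by linarith)
    have h2 := (hall t ht0).2
    rw [h1] at h2
    exact abs_log_le ((hall t ht0).1 i) (((hT1 T1 le_rfl).2.1 _ (hall t ht0).1 h2).1 i)

theorem uniq (R : Finset (Rx d)) {k : Rx d → ℝ → ℝ} (hm : ∀ r ∈ R, Measurable (k r)) {A : ℝ}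
    (hk : ∀ r ∈ R, ∀ t, |k r t| ≤ A) {z x : ℝ → Fin d → ℝ} {x0 : Fin d → ℝ} {τ : ℝ} (hτ : 0 ≤ τ)
    (hz : ContinuousOn z (Icc 0 τ)) (hx : ContinuousOn x (Icc 0 τ))
    (ez : ∀ t ∈ Icc 0 τ, z t = x0 + ∫ s in (0:ℝ)..t, fld R (fun r => k r s) (z s))
    (ex : ∀ t ∈ Icc 0 τ, x t = x0 + ∫ s in (0:ℝ)..t, fld R (fun r => k r s) (x s)) :
    ∀ t ∈ Icc 0 τ, z t = x t := by
  obtain ⟨C1, h1⟩ := isCompact_Icc.exists_bound_of_continuousOn hz
  obtain ⟨C2, h2⟩ := isCompact_Icc.exists_bound_of_continuousOn hx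
  obtain ⟨L, M, hL, -, hLM⟩ := fld_bounds R A (Metric.closedBall 0 (max C1 C2))
    (isCompact_closedBall _ _) (convex_closedBall _ _)
  refine unique_sol hL hτ hz hx (fld_int R hm hk (by rwa [uIcc_of_le hτ])).1
    (fld_int R hm hk (by rwa [uIcc_of_le hτ])).1 ez ex fun s hs => ?_
  refine (hLM _ (fun r hr => hk r hr s) _ ?_).2 _ ?_
  · rw [mem_closedBall_zero_iff]; exact (h1 s hs).trans (le_max_left _ _)
  · rw [mem_closedBall_zero_iff]; exact (h2 s hs).trans (le_max_right _ _)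

end Vale.Agent.P072
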