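import Mathlib

namespace Vale.Agent.P072

open Filter MeasureTheory Set

variable {E : Type*} [NormedAddCommGroup E] [NormedSpace ℝ E]

theorem weighted_bound {a b : ℝ → E} {L δ τ : ℝ} (hL : 0 < L) (hδ : 0 ≤ δ) (hτ : 0 ≤ τ)
    (ha : IntervalIntegrable a volume 0 τ) (hb : IntervalIntegrable b volume 0 τ)
    (h : ∀ s ∈ Ioc 0 τ, ‖a s - b s‖ ≤ L * Real.exp (2 * L * s) * δ) :
    ‖(∫ s in (0:ℝ)..τ, a s) - ∫ s in (0:ℝ)..τ, b s‖ ≤ δ / 2 * Real.exp (2 * L * τ) := by
  rw [← intervalIntegral.integral_sub ha hb]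
  refine (intervalIntegral.norm_integral_le_of_norm_le (g := fun s => L * Real.exp (2 * L * s) * δ)
    hτ (Eventually.of_forall h) (Continuous.intervalIntegrable (by fun_prop) _ _)).trans ?_
  have hd : ∀ s ∈ uIcc (0:ℝ) τ, HasDerivAt (fun s => δ / 2 * Real.exp (2 * L * s))
      (L * Real.exp (2 * L * s) * δ) s := by
    intro s _
    have h1 : HasDerivAt (fun s => 2 * L * s) (2 * L) s := by
      simpa using (hasDerivAt_id s).const_mul (2 * L)
    exact ((h1.exp).const_mul (δ / 2)).congr_deriv (by ring)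
  rw [intervalIntegral.integral_eq_sub_of_hasDerivAt hd
    (Continuous.intervalIntegrable (by fun_prop) _ _)]
  simp only [mul_zero, Real.exp_zero, mul_one]
  linarith

theorem unique_sol {z x f g : ℝ → E} {x0 : E} {L τ : ℝ} (hL : 0 < L) (hτ : 0 ≤ τ)
    (hz : ContinuousOn z (Icc 0 τ)) (hx : ContinuousOn x (Icc 0 τ))
    (hf : IntervalIntegrable f volume 0 τ) (hg : IntervalIntegrable g volume 0 τ)
    (ez : ∀ t ∈ Icc 0 τ, z t = x0 + ∫ s in (0:ℝ)..t, f s)
    (ex : ∀ t ∈ Icc 0 τ, x t = x0 + ∫ s in (0:ℝ)..t, g s)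
    (h : ∀ s ∈ Icc 0 τ, ‖f s - g s‖ ≤ L * ‖z s - x s‖) : ∀ t ∈ Icc 0 τ, z t = x t := by
  have hc : ContinuousOn (fun s => Real.exp (-(2 * L * s)) * ‖z s - x s‖) (Icc 0 τ) :=
    ContinuousOn.mul (Continuous.continuousOn (by fun_prop)) (hz.sub hx).norm
  obtain ⟨s0, hs0, hmax⟩ := isCompact_Icc.exists_isMaxOn ⟨0, left_mem_Icc.mpr hτ⟩ hc
  set δ := Real.exp (-(2 * L * s0)) * ‖z s0 - x s0‖ with hδ
  have hδ0 : 0 ≤ δ := by positivity
  have hb : ∀ s ∈ Icc 0 τ, ‖z s - x s‖ ≤ Real.exp (2 * L * s) * δ := by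
    intro s hs
    have h1 : Real.exp (-(2 * L * s)) * ‖z s - x s‖ ≤ δ := hmax hs
    have h2 := mul_le_mul_of_nonneg_left h1 (Real.exp_pos (2 * L * s)).le
    rwa [← mul_assoc, ← Real.exp_add, add_neg_cancel, Real.exp_zero, one_mul] at h2
  have hsub : uIcc 0 s0 ⊆ uIcc 0 τ := by
    rw [uIcc_of_le hs0.1, uIcc_of_le hτ]; exact Icc_subset_Icc le_rfl hs0.2
  have h3 := weighted_bound hL hδ0 hs0.1 (hf.mono_set hsub) (hg.mono_set hsub) (by
    intro s hs
    have hs' : s ∈ Icc 0 τ := ⟨hs.1.le, hs.2.trans hs0.2⟩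
    refine (h s hs').trans ?_
    rw [mul_assoc]
    exact mul_le_mul_of_nonneg_left (hb s hs') hL.le)
  have h4 : z s0 - x s0 = (∫ s in (0:ℝ)..s0, f s) - ∫ s in (0:ℝ)..s0, g s := by
    rw [ez s0 hs0, ex s0 hs0]; abel
  rw [← h4] at h3
  have h5 := mul_le_mul_of_nonneg_left h3 (Real.exp_pos (-(2 * L * s0))).le
  have h6 : Real.exp (-(2 * L * s0)) * (δ / 2 * Real.exp (2 * L * s0)) = δ / 2 := by
    rw [mul_left_comm, ← Real.exp_add, neg_add_cancel, Real.exp_zero, mul_one]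
  rw [h6, ← hδ] at h5
  have h7 : δ = 0 := by linarith
  intro t ht
  have := hb t ht
  rw [h7, mul_zero] at this
  exact sub_eq_zero.mp (norm_le_zero_iff.mp this)

theorem exists_sol [CompleteSpace E] (G : ℝ → E → E) {L M : ℝ} (hL : 0 < L) (hM0 : 0 ≤ M)
    (hlip : ∀ s x y, ‖G s x - G s y‖ ≤ L * ‖x - y‖) (hM : ∀ s x, ‖G s x‖ ≤ M)
    (hint : ∀ x : ℝ → E, Continuous x → ∀ a b, IntervalIntegrable (fun s => G s (x s)) volume a b)
    (x0 : E) :
    ∃ x : ℝ → E, Continuous x ∧ ∀ t, 0 ≤ t → x t = x0 + ∫ s in (0:ℝ)..t, G s (x s) := by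
  have hc : ∀ u : BoundedContinuousFunction ℝ E,
      Continuous fun s => Real.exp (2 * L * s) • u s := fun u => by fun_prop
  have hcont : ∀ u : BoundedContinuousFunction ℝ E, Continuous fun t : ℝ =>
      Real.exp (-(2 * L * max t 0)) •
        (x0 + ∫ s in (0:ℝ)..(max t 0), G s (Real.exp (2 * L * s) • u s)) := by
    intro u
    have h1 := (intervalIntegral.continuous_primitive (hint _ (hc u)) 0).comp
      (continuous_id.max (continuous_const (y := (0:ℝ))))
    exact Continuous.smul (by fun_prop) (continuous_const.add h1)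
  have hbd : ∀ u : BoundedContinuousFunction ℝ E, ∀ t : ℝ, ‖Real.exp (-(2 * L * max t 0)) •
        (x0 + ∫ s in (0:ℝ)..(max t 0), G s (Real.exp (2 * L * s) • u s))‖ ≤
        ‖x0‖ + M / (2 * L) := by
    intro u t
    have h0 : 0 ≤ max t 0 := le_max_right _ _
    generalize max t 0 = τ at h0
    have h1 := intervalIntegral.norm_integral_le_of_norm_le_const (a := 0) (b := τ)
      (f := fun s => G s (Real.exp (2 * L * s) • u s)) (fun s _ => hM s _)
    rw [sub_zero, abs_of_nonneg h0] at h1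
    rw [norm_smul, Real.norm_of_nonneg (Real.exp_pos _).le]
    have h2 : Real.exp (-(2 * L * τ)) ≤ 1 := Real.exp_le_one_iff.mpr (by nlinarith)
    have h3 : Real.exp (-(2 * L * τ)) * (2 * L * τ) ≤ 1 := by
      have := Real.add_one_le_exp (2 * L * τ)
      have h4 := mul_le_mul_of_nonneg_left this (Real.exp_pos (-(2 * L * τ))).le
      rw [← Real.exp_add, neg_add_cancel, Real.exp_zero] at h4
      linarith [Real.exp_pos (-(2 * L * τ))]
    have h5 : Real.exp (-(2 * L * τ)) * (M * τ) ≤ M / (2 * L) := by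
      rw [le_div_iff₀ (by linarith)]
      nlinarith
    have h6 := mul_le_mul_of_nonneg_left ((norm_add_le x0 _).trans (add_le_add_right h1 _))
      (Real.exp_pos (-(2 * L * τ))).le
    have h7 := mul_le_mul_of_nonneg_right h2 (norm_nonneg x0)
    linarith
  let Φ : BoundedContinuousFunction ℝ E → BoundedContinuousFunction ℝ E := fun u =>
    BoundedContinuousFunction.ofNormedAddCommGroup _ (hcont u) _ (hbd u)
  have hΦ : ContractingWith (1 / 2) Φ := by
    refine ⟨by norm_num, LipschitzWith.of_dist_le_mul fun u v => ?_⟩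
    rw [BoundedContinuousFunction.dist_le (by positivity)]
    intro t
    simp only [Φ, BoundedContinuousFunction.coe_ofNormedAddCommGroup]
    have h0 : 0 ≤ max t 0 := le_max_right _ _
    generalize max t 0 = τ at h0
    rw [dist_eq_norm, ← smul_sub, add_sub_add_left_eq_sub, norm_smul,
      Real.norm_of_nonneg (Real.exp_pos _).le]
    have h1 := weighted_bound hL (dist_nonneg (x := u) (y := v)) h0 (hint _ (hc u) 0 τ)
      (hint _ (hc v) 0 τ) (by
        intro s _
        refine (hlip _ _ _).trans ?_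
        rw [← smul_sub, norm_smul, Real.norm_of_nonneg (Real.exp_pos _).le, mul_assoc L]
        refine mul_le_mul_of_nonneg_left (mul_le_mul_of_nonneg_left ?_ (Real.exp_pos _).le) hL.le
        rw [← dist_eq_norm]
        exact BoundedContinuousFunction.dist_coe_le_dist s)
    refine (mul_le_mul_of_nonneg_left h1 (Real.exp_pos _).le).trans (le_of_eq ?_)
    rw [mul_left_comm, ← Real.exp_add, neg_add_cancel, Real.exp_zero]
    push_cast; ring
  obtain ⟨u, hu⟩ : ∃ u, Φ u = u := ⟨_, hΦ.fixedPoint_isFixedPt⟩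
  refine ⟨fun s => Real.exp (2 * L * s) • u s, hc u, fun t ht => ?_⟩
  have h1 : Φ u t = u t := by rw [hu]
  simp only [Φ, BoundedContinuousFunction.coe_ofNormedAddCommGroup, max_eq_left ht] at h1
  show Real.exp (2 * L * t) • u t = _
  conv_lhs => rw [← h1]
  rw [smul_smul, ← Real.exp_add, add_neg_cancel, Real.exp_zero, one_smul]

/-- Continuous induction for finitely many constraints. -/
theorem stay {ι : Type*} (W : Set ι) (hW : W.Finite) (g : ι → ℝ → ℝ) (p : ℝ → Prop)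
    (hp : IsClosed {t | p t}) (hp0 : p 0)
    (hg : ∀ w ∈ W, Continuous (g w)) (h0 : ∀ w ∈ W, g w 0 ≤ 0)
    (hstep : ∀ t, 0 ≤ t → p t → (∀ w ∈ W, g w t ≤ 0) → (∀ᶠ s in nhdsWithin t (Ioi t), p s) ∧
      ∀ w ∈ W, g w t = 0 → ∀ᶠ s in nhdsWithin t (Ioi t), g w s ≤ 0) :
    ∀ t, 0 ≤ t → p t ∧ ∀ w ∈ W, g w t ≤ 0 := by
  intro t ht
  have hcl : IsClosed {s | ∀ w ∈ W, g w s ≤ 0} := by
    simp only [Set.ofPred_forall]
    exact isClosed_iInter fun w => isClosed_iInter fun hw => isClosed_le (hg w hw) continuous_const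
  have := IsClosed.Icc_subset_of_forall_mem_nhdsWithin
    (s := {s | p s} ∩ {s | ∀ w ∈ W, g w s ≤ 0})
    (a := 0) (b := t) ((hp.inter hcl).inter isClosed_Icc) ⟨hp0, h0⟩ (by
      rintro s ⟨⟨hs0, hs⟩, hs'⟩
      obtain ⟨e1, e2⟩ := hstep s hs'.1 hs0 hs
      have : ∀ᶠ r in nhdsWithin s (Ioi s), ∀ w ∈ W, g w r ≤ 0 := by
        rw [hW.eventually_all]
        intro w hw
        rcases (hs w hw).lt_or_eq with h1 | h1
        · exact ((hg w hw).continuousAt.eventually_lt continuousAt_const h1).filter_mono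
            nhdsWithin_le_nhds |>.mono fun r hr => hr.le
        · exact e2 w hw h1
      exact e1.and this)
  exact this ⟨ht, le_rfl⟩

end Vale.Agent.P072
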