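import Mathlib

namespace Vale.Agent.P072

open Filter

/-- A strictly increasing map through finitely many order-compatible points. -/
theorem exists_strictMono (S : Finset (ℝ × ℝ)) (hne : S.Nonempty)
    (h : ∀ s ∈ S, ∀ s' ∈ S, (s.1 = s'.1 → s.2 = s'.2) ∧ (s.1 < s'.1 → s.2 < s'.2)) :
    ∃ g : ℝ → ℝ, StrictMono g ∧ ∀ s ∈ S, g s.1 = s.2 := by
  have h1 : ∀ᶠ Γ : ℝ in atTop, ∀ s ∈ S, ∀ s' ∈ S, s.1 < s'.1 →
      s'.2 - s.2 ≤ Γ * (s'.1 - s.1) ∧ (s'.1 - s.1) ≤ Γ * (s'.2 - s.2) := by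
    rw [eventually_all_finset]; intro s hs
    rw [eventually_all_finset]; intro s' hs'
    by_cases hlt : s.1 < s'.1
    · have h2 := (h s hs s' hs').2 hlt
      filter_upwards [eventually_ge_atTop ((s'.2 - s.2) / (s'.1 - s.1)),
        eventually_ge_atTop ((s'.1 - s.1) / (s'.2 - s.2))] with Γ a1 a2 _
      rw [div_le_iff₀ (by linarith)] at a1 a2
      exact ⟨a1, a2⟩
    · exact Eventually.of_forall fun Γ hh => absurd hh hlt
  obtain ⟨Γ, hΓ, hΓ0⟩ := (h1.and (eventually_gt_atTop 0)).exists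
  set f : ℝ × ℝ → ℝ → ℝ := fun s a => s.2 + Γ * max (a - s.1) 0 - Γ⁻¹ * max (s.1 - a) 0 with hf
  have hΓi : 0 < Γ⁻¹ := inv_pos.mpr hΓ0
  have hmono : ∀ s, StrictMono (f s) := by
    intro s a b hab
    simp only [hf]
    have e1 : max (a - s.1) 0 ≤ max (b - s.1) 0 := max_le_max (by linarith) le_rfl
    have e2 : max (s.1 - b) 0 ≤ max (s.1 - a) 0 := max_le_max (by linarith) le_rfl
    have e3 := mul_le_mul_of_nonneg_left e1 hΓ0.le
    have e4 := mul_le_mul_of_nonneg_left e2 hΓi.le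
    rcases lt_or_ge a s.1 with h1 | h1
    · have e5 : max (s.1 - b) 0 < max (s.1 - a) 0 :=
        max_lt (lt_max_of_lt_left (by linarith)) (lt_max_of_lt_left (by linarith))
      have := mul_lt_mul_of_pos_left e5 hΓi
      linarith
    · have e5 : max (a - s.1) 0 < max (b - s.1) 0 :=
        max_lt (lt_max_of_lt_left (by linarith)) (lt_max_of_lt_left (by linarith))
      have := mul_lt_mul_of_pos_left e5 hΓ0
      linarith
  refine ⟨fun a => S.inf' hne fun s => f s a, ?_, ?_⟩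
  · intro a b hab
    rw [Finset.lt_inf'_iff]
    intro s hs
    exact lt_of_le_of_lt (Finset.inf'_le _ hs) (hmono s hab)
  · intro s hs
    apply le_antisymm
    · refine le_trans (Finset.inf'_le _ hs) ?_
      simp [hf]
    · rw [Finset.le_inf'_iff]
      intro t ht
      simp only [hf]
      rcases lt_trichotomy t.1 s.1 with h1 | h1 | h1
      · rw [max_eq_left (show (0:ℝ) ≤ s.1 - t.1 by linarith),
          max_eq_right (show t.1 - s.1 ≤ (0:ℝ) by linarith)]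
        have := (hΓ t ht s hs h1).1
        linarith
      · have := (h t ht s hs).1 h1
        rw [h1, this]; simp
      · rw [max_eq_right (show s.1 - t.1 ≤ (0:ℝ) by linarith),
          max_eq_left (show (0:ℝ) ≤ t.1 - s.1 by linarith)]
        have h3 := (hΓ s hs t ht h1).2
        have : Γ⁻¹ * (t.1 - s.1) ≤ t.2 - s.2 := by
          rw [inv_mul_le_iff₀ hΓ0]; exact h3
        linarith

/-- The staircase below a distinguished point. -/
theorem exists_stair (S : Finset (ℝ × ℝ)) (μ G p0 v0 : ℝ) (hμ : 0 ≤ μ) (hG : 2 * μ < G)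
    (h0 : (p0, v0) ∈ S)
    (h : ∀ s ∈ S, ∀ s' ∈ S, (s.2 = s'.2 ∧ s.1 = s'.1) ∨ (s.2 < s'.2 ∧ s.1 + G ≤ s'.1) ∨
      (s'.2 < s.2 ∧ s'.1 + G ≤ s.1)) :
    ∃ θ e ρ B : ℕ → ℝ, Antitone θ ∧ (∀ q, e q ≤ p0) ∧
      (∀ q : ℕ, (q : ℝ) ≤ μ → θ q = v0) ∧
      (∀ q q' : ℕ, e q + ρ q < p0 - q' → θ q < θ q') ∧
      (∀ q q' : ℕ, p0 - q' < e q - ρ q → θ q' < θ q) ∧
      (∀ q, (ρ q = μ ∧ B q = G) ∨ (ρ q = 0 ∧ B q = μ)) ∧
      (∀ q, ∀ s ∈ S, (θ q = s.2 ∧ e q = s.1) ∨ (θ q < s.2 ∧ e q + B q ≤ s.1) ∨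
        (s.2 < θ q ∧ s.1 + B q ≤ e q)) := by
  classical
  have hG0 : 0 < G := by linarith
  obtain ⟨g, hg, hgS⟩ := exists_strictMono S ⟨_, h0⟩ (by
    intro s hs s' hs'
    rcases h s hs s' hs' with h1 | h1 | h1
    · exact ⟨fun _ => h1.1, fun h2 => absurd h1.2 h2.ne⟩
    · exact ⟨fun h2 => by linarith [h1.2], fun _ => h1.1⟩
    · exact ⟨fun h2 => by linarith [h1.2], fun h2 => by linarith [h1.2]⟩)
  have hsep : ∀ s ∈ S, ∀ s' ∈ S, s.1 = s'.1 ∨ s.1 + G ≤ s'.1 ∨ s'.1 + G ≤ s.1 := by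
    intro s hs s' hs'
    rcases h s hs s' hs' with h1 | h1 | h1
    · exact Or.inl h1.2
    · exact Or.inr (Or.inl h1.2)
    · exact Or.inr (Or.inr h1.2)
  have hex : ∀ a : ℝ, ∃ b : ℝ, (∃ s ∈ S, |a - s.1| ≤ μ ∧ b = s.1) ∨
      ((∀ s ∈ S, μ < |a - s.1|) ∧ b = a) := by
    intro a
    by_cases hh : ∃ s ∈ S, |a - s.1| ≤ μ
    · obtain ⟨s, hs, h1⟩ := hh
      exact ⟨s.1, Or.inl ⟨s, hs, h1, rfl⟩⟩
    · push Not at hh
      exact ⟨a, Or.inr ⟨hh, rfl⟩⟩
  choose σ hσ using hex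
  have hsnap : ∀ s ∈ S, ∀ a, |a - s.1| ≤ μ → σ a = s.1 := by
    intro s hs a ha
    rcases hσ a with ⟨t, ht, h1, h2⟩ | ⟨h1, _⟩
    · rw [h2]
      rw [abs_le] at ha h1
      rcases hsep s hs t ht with h3 | h3 | h3
      · exact h3.symm
      · linarith [ha.1, ha.2, h1.1, h1.2]
      · linarith [ha.1, ha.2, h1.1, h1.2]
    · exact absurd ha (not_le.mpr (h1 s hs))
  have hex2 : ∀ a : ℝ, ∃ ρ B : ℝ, ((ρ = μ ∧ B = G) ∨ (ρ = 0 ∧ B = μ)) ∧
      (∀ b, σ a + ρ < b → σ a < σ b) ∧ (∀ b, b < σ a - ρ → σ b < σ a) ∧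
      σ a - ρ ≤ a ∧ a ≤ σ a + ρ ∧
      (∀ s ∈ S, σ a = s.1 ∨ σ a + B ≤ s.1 ∨ s.1 + B ≤ σ a) := by
    intro a
    rcases hσ a with ⟨t, ht, h1, h2⟩ | ⟨h1, h2⟩
    · refine ⟨μ, G, Or.inl ⟨rfl, rfl⟩, ?_, ?_, ?_, ?_, ?_⟩
      · intro b hb
        rw [h2] at hb ⊢
        rcases hσ b with ⟨u, hu, h3, h4⟩ | ⟨_, h4⟩
        · rw [h4]
          rw [abs_le] at h3
          rcases hsep t ht u hu with h5 | h5 | h5 <;> linarith [h3.1, h3.2]
        · rw [h4]; linarith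
      · intro b hb
        rw [h2] at hb ⊢
        rcases hσ b with ⟨u, hu, h3, h4⟩ | ⟨_, h4⟩
        · rw [h4]
          rw [abs_le] at h3
          rcases hsep t ht u hu with h5 | h5 | h5 <;> linarith [h3.1, h3.2]
        · rw [h4]; linarith
      · rw [h2]; rw [abs_le] at h1; linarith [h1.1]
      · rw [h2]; rw [abs_le] at h1; linarith [h1.2]
      · intro s hs
        rw [h2]
        exact hsep t ht s hs
    · refine ⟨0, μ, Or.inr ⟨rfl, rfl⟩, ?_, ?_, ?_, ?_, ?_⟩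
      · intro b hb
        rw [h2] at hb ⊢
        rcases hσ b with ⟨u, hu, h3, h4⟩ | ⟨_, h4⟩
        · rw [h4]
          rw [abs_le] at h3
          rcases lt_abs.mp (h1 u hu) with h5 | h5 <;> linarith [h3.1, h3.2]
        · rw [h4]; linarith
      · intro b hb
        rw [h2] at hb ⊢
        rcases hσ b with ⟨u, hu, h3, h4⟩ | ⟨_, h4⟩
        · rw [h4]
          rw [abs_le] at h3
          rcases lt_abs.mp (h1 u hu) with h5 | h5 <;> linarith [h3.1, h3.2]
        · rw [h4]; linarith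
      · rw [h2]; linarith
      · rw [h2]; linarith
      · intro s hs
        rw [h2]
        rcases lt_abs.mp (h1 s hs) with h5 | h5
        · right; right; linarith
        · right; left; linarith
  choose ρ B hρ hup hlo hl hr hB using hex2
  have hσm : Monotone σ := by
    intro a b hab
    by_contra hc
    push Not at hc
    rcases hσ a with ⟨t, ht, h1, h2⟩ | ⟨h1, h2⟩ <;> rcases hσ b with ⟨u, hu, h3, h4⟩ | ⟨h3, h4⟩
    · rw [h2, h4] at hc
      rw [abs_le] at h1 h3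
      rcases hsep t ht u hu with h5 | h5 | h5 <;> linarith [h1.1, h1.2, h3.1, h3.2]
    · rw [h2, h4] at hc
      rw [abs_le] at h1
      rcases lt_abs.mp (h3 t ht) with h5 | h5 <;> linarith [h1.1, h1.2]
    · rw [h2, h4] at hc
      rw [abs_le] at h3
      rcases lt_abs.mp (h1 u hu) with h5 | h5 <;> linarith [h3.1, h3.2]
    · rw [h2, h4] at hc; linarith
  have hp0 : σ p0 = p0 := hsnap _ h0 p0 (by simpa using hμ)
  refine ⟨fun q => g (σ (p0 - q)), fun q => σ (p0 - q), fun q => ρ (p0 - q), fun q => B (p0 - q),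
    ?_, ?_, ?_, ?_, ?_, ?_, ?_⟩
  · intro a b hab
    have : (a : ℝ) ≤ b := by exact_mod_cast hab
    exact hg.monotone (hσm (by linarith))
  · intro q
    have : (0 : ℝ) ≤ q := Nat.cast_nonneg q
    calc σ (p0 - q) ≤ σ p0 := hσm (by linarith)
      _ = p0 := hp0
  · intro q hq
    have : (0 : ℝ) ≤ q := Nat.cast_nonneg q
    have h1 : σ (p0 - q) = p0 := hsnap _ h0 _ (by
      simp only [sub_sub_cancel_left, abs_neg]; rwa [abs_of_nonneg this])
    simp only [h1]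
    exact hgS _ h0
  · intro q q' hh
    exact hg (hup _ _ hh)
  · intro q q' hh
    exact hg (hlo _ _ hh)
  · intro q; exact hρ _
  · intro q s hs
    have hBpos : 0 ≤ B (p0 - q) := by
      rcases hρ (p0 - q) with h1 | h1 <;> rw [h1.2] <;> linarith
    rw [← hgS s hs]
    rcases lt_trichotomy (σ (p0 - q)) s.1 with h1 | h1 | h1
    · right; left
      refine ⟨hg h1, ?_⟩
      rcases hB (p0 - q) s hs with h2 | h2 | h2 <;> linarith
    · left; exact ⟨by simp only [h1], h1⟩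
    · right; right
      refine ⟨hg h1, ?_⟩
      rcases hB (p0 - q) s hs with h2 | h2 | h2 <;> linarith

theorem ev_exp (C : ℝ) {α β : ℝ} (h : α < β) :
    ∀ᶠ T : ℝ in atTop, C * Real.exp (T * α) ≤ Real.exp (T * β) := by
  filter_upwards [eventually_ge_atTop (C / (β - α))] with T hT
  rw [div_le_iff₀ (by linarith)] at hT
  have h1 : Real.exp (T * β) = Real.exp (T * (β - α)) * Real.exp (T * α) := by
    rw [← Real.exp_add]; ring_nf
  rw [h1]
  have h2 := Real.add_one_le_exp (T * (β - α))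
  exact mul_le_mul_of_nonneg_right (by linarith) (Real.exp_pos _).le

end Vale.Agent.P072
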