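import Vale.Agent.P072.Child

namespace Vale.Agent.P072

open Filter Finset

noncomputable def child (k : ℕ) (ν : Node) (θ e ρ : ℕ → ℝ) (q : ℕ) : Node :=
  ⟨ext k ν.y (θ q), ext k ν.c (e q), ρ q + ν.D + 2, fun T => ν.H T - cs θ (ν.c k) T q⟩

noncomputable def zchild (k : ℕ) (R D0 : ℝ) : Node :=
  ⟨ext k 0 (-1), ext k 0 (-R), D0, fun T => -Real.exp (T * (-R))⟩

theorem ext_le {k j : ℕ} (h : j ≤ k) (y : ℕ → ℝ) (t : ℝ) : ext k y t j = y j := by simp [ext, h]

theorem ext_gt {k j : ℕ} (h : k + 1 ≤ j) (y : ℕ → ℝ) (t : ℝ) : ext k y t j = t := by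
  have : ¬ j ≤ k := by omega
  simp [ext, this]

theorem good_succ {d k : ℕ} (hk : k + 1 < d)
    (ih : ∀ L : Set (ℕ → ℝ), L.Finite → ∀ K : ℝ, 0 ≤ K → ∃ N D0, Good d k L K N D0)
    (L : Set (ℕ → ℝ)) (hL : L.Finite) (K : ℝ) (hK : 0 ≤ K) :
    ∃ N D0, Good d (k + 1) L K N D0 := by
  classical
  have hdR : (0 : ℝ) < d := by exact_mod_cast (show 0 < d by omega)
  obtain ⟨A, hA, hA2⟩ := ((ev_mul L hL (k + 1) (3 * K)).and (eventually_ge_atTop 2)).exists
  obtain ⟨K', hK1, hK2, hK3⟩ := ((ev_mul L hL (k + 1) (K * (A + 3))).and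
    ((eventually_gt_atTop (2 * A)).and (eventually_ge_atTop (K * (A + 3))))).exists
  set M : Set (ℕ → ℝ) := insert (fun j => if j = k then 1 else 0)
    ((fun l : ℕ → ℝ => fun j => -l j / l (k + 1)) '' L) with hM
  have hMf : M.Finite := (hL.image _).insert _
  obtain ⟨N, D0, G⟩ := ih (L ∪ Set.image2 (· - ·) M M) (hL.union (hMf.image2 _ hMf)) K'
    (by linarith)
  obtain ⟨R, hR, hR0⟩ := ((ev_mul L hL (k + 1) (K * D0)).and (eventually_gt_atTop 0)).exists
  have hst : ∀ ν : Node, ∃ θ e ρ B : ℕ → ℝ, ν ∈ N → Antitone θ ∧ (∀ q, e q ≤ ν.c k) ∧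
      (∀ q : ℕ, (q : ℝ) ≤ A * ν.D → θ q = ν.y k) ∧
      (∀ q q' : ℕ, e q + ρ q < ν.c k - q' → θ q < θ q') ∧
      (∀ q q' : ℕ, ν.c k - q' < e q - ρ q → θ q' < θ q) ∧
      (∀ q, (ρ q = A * ν.D ∧ B q = K' * ν.D) ∨ (ρ q = 0 ∧ B q = A * ν.D)) ∧
      (∀ q, ∀ m ∈ M, (θ q = dot (k + 1) m ν.y ∧ e q = dot (k + 1) m ν.c) ∨
        (θ q < dot (k + 1) m ν.y ∧ e q + B q ≤ dot (k + 1) m ν.c) ∨
        (dot (k + 1) m ν.y < θ q ∧ dot (k + 1) m ν.c + B q ≤ e q)) := by
    intro ν
    by_cases hν : ν ∈ N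
    · have hD := G.D1 ν hν
      obtain ⟨θ, e, ρ, B, h1, h2, h3, h4, h5, h6, h7⟩ := exists_stair
        (hMf.toFinset.image fun m => (dot (k + 1) m ν.c, dot (k + 1) m ν.y))
        (A * ν.D) (K' * ν.D) (ν.c k) (ν.y k) (by nlinarith) (by nlinarith)
        (Finset.mem_image.mpr ⟨fun j => if j = k then 1 else 0, by simp [hM],
          by rw [dot_single, dot_single]⟩)
        (by
          intro s hs s' hs'
          obtain ⟨m, hm, rfl⟩ := Finset.mem_image.mp hs
          obtain ⟨m', hm', rfl⟩ := Finset.mem_image.mp hs'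
          rw [Set.Finite.mem_toFinset] at hm hm'
          have := G.Z ν hν (m - m') (Or.inr (Set.mem_image2_of_mem hm hm'))
          rw [dot_sub, dot_sub] at this
          rcases this with h | h | h
          · left; constructor <;> simp only <;> linarith [h.1, h.2]
          · right; left; constructor <;> simp only <;> linarith [h.1, h.2]
          · right; right; constructor <;> simp only <;> linarith [h.1, h.2])
      refine ⟨θ, e, ρ, B, fun _ => ⟨h1, h2, h3, h4, h5, h6, fun q m hm => ?_⟩⟩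
      exact h7 q _ (Finset.mem_image.mpr ⟨m, (Set.Finite.mem_toFinset hMf).mpr hm, rfl⟩)
    · exact ⟨0, 0, 0, 0, fun h => absurd h hν⟩
  choose θ e ρ B hst using hst
  set Q : Node → ℕ := fun ν => ⌈ν.c k + R⌉₊ with hQ
  have hQ' : ∀ ν, ν.c k - Q ν ≤ -R := fun ν => by
    have := Nat.le_ceil (ν.c k + R); simp only [hQ]; linarith
  set N' : Set Node := insert (zchild k R D0)
    (⋃ ν ∈ N, child k ν (θ ν) (e ν) (ρ ν) '' Set.Iic (Q ν)) with hN'
  have hmem : ∀ ν' ∈ N', ν' = zchild k R D0 ∨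
      ∃ ν ∈ N, ∃ q ≤ Q ν, ν' = child k ν (θ ν) (e ν) (ρ ν) q := by
    intro ν' h
    rcases h with h | h
    · exact Or.inl h
    · right
      simp only [Set.mem_iUnion, Set.mem_image, Set.mem_Iic] at h
      obtain ⟨ν, hν, q, hq, rfl⟩ := h
      exact ⟨ν, hν, q, hq, rfl⟩
  have hch : ∀ ν ∈ N, ∀ q ≤ Q ν, child k ν (θ ν) (e ν) (ρ ν) q ∈ N' := by
    intro ν hν q hq
    right
    simp only [Set.mem_iUnion, Set.mem_image, Set.mem_Iic]
    exact ⟨ν, hν, q, hq, rfl⟩
  have hθ0 : ∀ ν ∈ N, θ ν 0 = ν.y k := fun ν hν =>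
    (hst ν hν).2.2.1 0 (by have := G.D1 ν hν; simp only [Nat.cast_zero]; nlinarith)
  have hρ0 : ∀ ν ∈ N, ∀ q, 0 ≤ ρ ν q := by
    intro ν hν q
    have := G.D1 ν hν
    rcases (hst ν hν).2.2.2.2.2.1 q with h | h <;> rw [h.1]
    nlinarith
  have hcons : ∀ T x, (∀ ν' ∈ N', dot d ν'.y x ≤ ν'.H T) → ∀ ν ∈ N, dot d ν.y x ≤ ν.H T := by
    intro T x h ν hν
    have := h _ (hch ν hν 0 (Nat.zero_le _))
    simp only [child, cs, range_zero, sum_empty, sub_zero] at this
    rwa [hθ0 ν hν, ext_self k _ (G.tie ν hν)] at this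
  have hz : ∀ T x, (∀ ν' ∈ N', dot d ν'.y x ≤ ν'.H T) → Real.exp (T * (-R)) ≤ tail d k x := by
    intro T x h
    have := h _ (Set.mem_insert _ _)
    simp only [zchild] at this
    rw [dot_ext, dot_zero_left] at this
    linarith
  have hpar : ∀ ν ∈ N, ∀ q, ∀ Λ : ℝ, 0 ≤ Λ → ∀ T : ℝ, 0 ≤ T → ∀ x : ℕ → ℝ, (∀ j, 0 < x j) →
      dot d (ext k ν.y (θ ν q)) x ≤ dot d ν.y x ∧
      ν.H T - (Λ + (θ ν 0 - θ ν q)) * Real.exp (T * (ν.c k - ν.D - 1)) ≤
        ν.H T - cs (θ ν) (ν.c k) T q -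
          Λ * Real.exp (T * (e ν q - (ρ ν q + ν.D + 2) - 1)) := by
    intro ν hν q Λ hΛ T hT x hx
    obtain ⟨h1, h2, h3, -⟩ := hst ν hν
    have hD := G.D1 ν hν
    have hg : 0 ≤ θ ν 0 - θ ν q := sub_nonneg.mpr (h1 (Nat.zero_le q))
    constructor
    · conv_rhs => rw [← ext_self k _ (G.tie ν hν)]
      rw [dot_ext d k _ (θ ν q), dot_ext d k _ (ν.y k), ← hθ0 ν hν]
      have := (hx _).le.trans (tail_ge hk hx)
      nlinarith
    · have c1 := cs_cross h1 (ν.c k) _ _ h3 hT q
      have c2 : Real.exp (T * (ν.c k - A * ν.D)) ≤ Real.exp (T * (ν.c k - ν.D - 1)) :=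
        Real.exp_le_exp.mpr (mul_le_mul_of_nonneg_left (by nlinarith) hT)
      have c3 : Real.exp (T * (e ν q - (ρ ν q + ν.D + 2) - 1)) ≤
          Real.exp (T * (ν.c k - ν.D - 1)) :=
        Real.exp_le_exp.mpr (mul_le_mul_of_nonneg_left (by linarith [h2 q, hρ0 ν hν q]) hT)
      have c4 := mul_le_mul_of_nonneg_left c2 hg
      have c5 := mul_le_mul_of_nonneg_left c3 hΛ
      linarith
  refine ⟨N', D0 + R + 1, ?_, ?_, ?_, ?_, ?_, ?_, ?_, ?_, ?_, ?_⟩
  · exact (G.fin.biUnion fun ν _ => (Set.finite_Iic _).image _).insert _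
  · intro ν' h
    rcases hmem ν' h with rfl | ⟨ν, hν, q, hq, rfl⟩
    · exact ext_anti k 0 (-1) antitone_const (by simp)
    · refine ext_anti k _ _ (G.anti ν hν) ?_
      rw [← hθ0 ν hν]; exact (hst ν hν).1 (Nat.zero_le q)
  · intro ν' h j hj
    rcases hmem ν' h with rfl | ⟨ν, hν, q, hq, rfl⟩
    · simp only [zchild]; rw [ext_gt hj, ext_gt le_rfl]
    · simp only [child]; rw [ext_gt hj, ext_gt le_rfl]
  · intro ν' h
    rcases hmem ν' h with rfl | ⟨ν, hν, q, hq, rfl⟩
    · exact G.D01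
    · simp only [child]; linarith [G.D1 ν hν, hρ0 ν hν q]
  · linarith [G.D01]
  · intro ν' h l hl
    rcases hmem ν' h with rfl | ⟨ν, hν, q, hq, rfl⟩
    · simp only [zchild]
      rw [dot_ext_succ, dot_ext_succ, dot_zero_right]
      rcases lt_trichotomy (l (k + 1)) 0 with h | h | h
      · have := hR l hl h.ne
        rw [abs_of_neg h] at this
        right; right; exact ⟨by linarith, by linarith⟩
      · left; simp [h]
      · have := hR l hl h.ne'
        rw [abs_of_pos h] at this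
        right; left; exact ⟨by linarith, by linarith⟩
    · simp only [child]
      rw [dot_ext_succ, dot_ext_succ]
      have hD := G.D1 ν hν
      obtain ⟨-, -, -, -, -, h6, h7⟩ := hst ν hν
      have hρle : ρ ν q + ν.D + 2 ≤ (A + 3) * ν.D := by
        rcases h6 q with h | h <;> rw [h.1] <;> nlinarith
      have hKD : K * (ρ ν q + ν.D + 2) ≤ K * (A + 3) * ν.D := by
        rw [mul_assoc]; exact mul_le_mul_of_nonneg_left hρle hK
      by_cases hl0 : l (k + 1) = 0
      · rw [hl0]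
        have h8 : K * (A + 3) * ν.D ≤ K' * ν.D := mul_le_mul_of_nonneg_right hK3 (by linarith)
        rcases G.Z ν hν l (Or.inl hl) with h | h | h
        · left; simp [h.1, h.2]
        · right; left; exact ⟨by linarith [h.1], by linarith [h.2]⟩
        · right; right; exact ⟨by linarith [h.1], by linarith [h.2]⟩
      · have h8 := h7 q (fun j => -l j / l (k + 1)) (Or.inr ⟨l, hl, rfl⟩)
        rw [dot_div, dot_div] at h8
        have hB : K * (ρ ν q + ν.D + 2) ≤ B ν q * |l (k + 1)| := by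
          rcases h6 q with h | h
          · rw [h.2]
            have := mul_le_mul_of_nonneg_right (hK1 l hl hl0) (show 0 ≤ ν.D by linarith)
            linarith
          · rw [h.1, h.2]
            have := mul_le_mul_of_nonneg_right (hA l hl hl0) (show 0 ≤ ν.D by linarith)
            nlinarith
        have h9 := sign_of_wall hl0 hB h8
        have e1 : ∀ u v : ℝ, l (k + 1) * (u - -v / l (k + 1)) = v + l (k + 1) * u := by
          intro u v; field_simp; ring
        rw [e1, e1] at h9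
        exact h9
  · intro ν' h
    rcases hmem ν' h with rfl | ⟨ν, hν, q, hq, rfl⟩
    · simp only [zchild]; fun_prop
    · exact (G.smooth ν hν).sub (cs_smooth _ _ _)
  · intro ν' h x hx Λ hΛ
    rcases hmem ν' h with rfl | ⟨ν, hν, q, hq, rfl⟩
    · simp only [zchild]
      rw [dot_ext, dot_zero_left, ext_gt le_rfl]
      have hs : 0 < tail d k x := (hx _).trans_le (tail_ge hk hx)
      filter_upwards [ev_small (half_pos hs) 1 (show -R < 0 by linarith),
        ev_small (half_pos hs) Λ (show -R - D0 - 1 < 0 by linarith [G.D01])] with T h1 h2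
      linarith
    · simp only [child]
      rw [ext_gt le_rfl]
      have hg : 0 ≤ θ ν 0 - θ ν q := sub_nonneg.mpr ((hst ν hν).1 (Nat.zero_le q))
      filter_upwards [G.exh ν hν x hx (Λ + (θ ν 0 - θ ν q)) (by linarith),
        eventually_ge_atTop 0] with T h1 hT
      obtain ⟨h2, h3⟩ := hpar ν hν q Λ hΛ T hT x hx
      linarith
  · filter_upwards [G.box0, eventually_ge_atTop 0,
      ev_exp d (show -(D0 + R + 1) < -R by linarith [G.D01])] with T h1 hT e1 x ha hx hc j hj
    have h2 := h1 x ha hx (hcons T x hc)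
    have h3 : T * D0 ≤ T * (D0 + R + 1) := mul_le_mul_of_nonneg_left (by linarith) hT
    rcases Nat.lt_or_ge j (k + 1) with h4 | h4
    · exact (h2 j (by omega)).trans h3
    · obtain rfl : j = k + 1 := by omega
      have h5 := Real.log_le_log (hx _) (ha (Nat.le_succ k))
      have h6 := (abs_le.mp (h2 k le_rfl)).2
      have h7 : T * -(D0 + R + 1) ≤ Real.log (x (k + 1)) := by
        apply le_log_of (hx _)
        apply le_of_mul_le_mul_left _ hdR
        linarith [tail_le d k ha hx, hz T x hc]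
      rw [abs_le]; constructor <;> linarith
  · intro ν' h Λ hΛ
    rcases hmem ν' h with rfl | ⟨ν, hν, q, hq, rfl⟩
    · simp only [zchild]
      rw [ext_gt le_rfl]
      filter_upwards [G.box0, eventually_ge_atTop 0,
        ev_exp d (show -R - 1 < -R by linarith),
        ev_exp (2 * Λ) (show -R - D0 - 1 < -R + 1 by linarith [G.D01]),
        ev_exp 2 (show -R < -R + 1 by linarith)] with T h1 hT e1 e2 e3 x ha hx hc hn j hj
      have h2 := h1 x ha hx (hcons T x hc)
      rcases Nat.lt_or_ge j (k + 1) with h4 | h4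
      · rw [ext_le (by omega)]
        simpa using h2 j (by omega)
      · obtain rfl : j = k + 1 := by omega
        rw [ext_gt le_rfl]
        rw [dot_ext, dot_zero_left] at hn
        have h7 : T * (-R - 1) ≤ Real.log (x (k + 1)) := by
          apply le_log_of (hx _)
          apply le_of_mul_le_mul_left _ hdR
          linarith [tail_le d k ha hx, hz T x hc]
        have h8 : Real.log (x (k + 1)) ≤ T * (-R + 1) :=
          log_le_of (hx _) (by linarith [tail_ge hk hx])
        have h9 : T * 1 ≤ T * D0 := mul_le_mul_of_nonneg_left G.D01 hT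
        rw [abs_le]; constructor <;> linarith
    · simp only [child]
      rw [ext_gt le_rfl]
      obtain ⟨h1, h2, h3, h4, h5, -⟩ := hst ν hν
      have hg : 0 ≤ θ ν 0 - θ ν q := sub_nonneg.mpr (h1 (Nat.zero_le q))
      filter_upwards [G.box ν hν (Λ + (θ ν 0 - θ ν q)) (by linarith), eventually_ge_atTop 0,
        child_box (Λ := Λ) hk ν.y ν.H h1 hq (hQ' ν) (h2 q) (hρ0 ν hν q) (G.D1 ν hν) (h4 q) (h5 q)]
        with T b1 hT b2 x ha hx hc hn j hj
      obtain ⟨p1, p2⟩ := hpar ν hν q Λ hΛ T hT x hx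
      have b3 := b1 x ha hx (hcons T x hc) (by linarith)
      rcases Nat.lt_or_ge j (k + 1) with h6 | h6
      · rw [ext_le (by omega)]
        refine (b3 j (by omega)).trans (mul_le_mul_of_nonneg_left ?_ hT)
        linarith [hρ0 ν hν q]
      · obtain rfl : j = k + 1 := by omega
        rw [ext_gt le_rfl]
        refine b2 x ha hx (fun q' hq' => hc _ (hch ν hν q' hq')) (hz T x hc) ?_ hn
        have := (abs_le.mp (b3 k le_rfl)).2
        linarith

theorem good_all {d : ℕ} (k : ℕ) (hk : k < d) :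
    ∀ L : Set (ℕ → ℝ), L.Finite → ∀ K : ℝ, 0 ≤ K → ∃ N D0, Good d k L K N D0 := by
  induction k with
  | zero => exact fun L hL K _ => good_zero hk L hL K
  | succ k ih => exact good_succ hk (ih (by omega))

end Vale.Agent.P072
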