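import Vale.Agent.P072.Basic

namespace Vale.Agent.P072

open Filter Finset

structure Node where
  y : ℕ → ℝ
  c : ℕ → ℝ
  D : ℝ
  H : ℝ → ℝ

structure Good (d k : ℕ) (L : Set (ℕ → ℝ)) (K : ℝ) (N : Set Node) (D0 : ℝ) : Prop where
  fin : N.Finite
  anti : ∀ ν ∈ N, Antitone ν.y
  tie : ∀ ν ∈ N, ∀ j, k ≤ j → ν.y j = ν.y k
  D1 : ∀ ν ∈ N, 1 ≤ ν.D
  D01 : 1 ≤ D0
  Z : ∀ ν ∈ N, ∀ l ∈ L, (dot (k + 1) l ν.y = 0 ∧ dot (k + 1) l ν.c = 0) ∨
    (dot (k + 1) l ν.y < 0 ∧ dot (k + 1) l ν.c ≤ -(K * ν.D)) ∨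
    (0 < dot (k + 1) l ν.y ∧ K * ν.D ≤ dot (k + 1) l ν.c)
  smooth : ∀ ν ∈ N, ContDiff ℝ 1 ν.H
  exh : ∀ ν ∈ N, ∀ x : ℕ → ℝ, (∀ j, 0 < x j) → ∀ Λ : ℝ, 0 ≤ Λ → ∀ᶠ T in atTop,
    dot d ν.y x < ν.H T - Λ * Real.exp (T * (ν.c k - ν.D - 1))
  box0 : ∀ᶠ T in atTop, ∀ x : ℕ → ℝ, Antitone x → (∀ j, 0 < x j) →
    (∀ ν ∈ N, dot d ν.y x ≤ ν.H T) → ∀ j ≤ k, |Real.log (x j)| ≤ T * D0
  box : ∀ ν ∈ N, ∀ Λ : ℝ, 0 ≤ Λ → ∀ᶠ T in atTop, ∀ x : ℕ → ℝ, Antitone x → (∀ j, 0 < x j) →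
    (∀ ν' ∈ N, dot d ν'.y x ≤ ν'.H T) →
    ν.H T - Λ * Real.exp (T * (ν.c k - ν.D - 1)) ≤ dot d ν.y x →
    ∀ j ≤ k, |Real.log (x j) - T * ν.c j| ≤ T * ν.D

theorem sum_bounds {d : ℕ} (hd : 0 < d) {x : ℕ → ℝ} (ha : Antitone x) (hx : ∀ j, 0 < x j) :
    x 0 ≤ ∑ j ∈ range d, x j ∧ ∑ j ∈ range d, x j ≤ d * x 0 := by
  constructor
  · exact Finset.single_le_sum (f := x) (fun j _ => (hx j).le) (Finset.mem_range.mpr hd)
  · have := Finset.sum_le_card_nsmul (range d) x (x 0) (fun j _ => ha (Nat.zero_le j))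
    simpa using this

theorem good_zero {d : ℕ} (hd : 0 < d) (L : Set (ℕ → ℝ)) (hL : L.Finite) (K : ℝ) :
    ∃ N D0, Good d 0 L K N D0 := by
  obtain ⟨B, hB, hB0⟩ := ((ev_mul L hL 0 K).and (eventually_gt_atTop 0)).exists
  let P : Node := ⟨fun _ => 1, fun _ => B, 1, fun T => Real.exp (T * B)⟩
  let Q : Node := ⟨fun _ => -1, fun _ => -B, 1, fun T => -Real.exp (T * (-B))⟩
  have hP : ∀ x, dot d P.y x = ∑ j ∈ range d, x j := by intro x; simp [dot, P]
  have hQ : ∀ x, dot d Q.y x = -∑ j ∈ range d, x j := by intro x; simp [dot, Q]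
  have hdR : (0 : ℝ) < d := by exact_mod_cast hd
  have hb0 : ∀ᶠ T in atTop, ∀ x : ℕ → ℝ, Antitone x → (∀ j, 0 < x j) →
      (∀ ν ∈ ({P, Q} : Set Node), dot d ν.y x ≤ ν.H T) →
      Real.log (x 0) ≤ T * B ∧ T * (-B - 1) ≤ Real.log (x 0) := by
    filter_upwards [ev_exp d (show -B - 1 < -B by linarith)] with T hT x ha hx hc
    have h1 := hc P (by simp)
    have h2 := hc Q (by simp)
    rw [hP] at h1
    rw [hQ] at h2
    obtain ⟨s1, s2⟩ := sum_bounds hd ha hx
    simp only [P, Q] at h1 h2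
    refine ⟨log_le_of (hx 0) (by linarith), le_log_of (hx 0) ?_⟩
    exact le_of_mul_le_mul_left (a := (d : ℝ)) (by linarith) hdR
  refine ⟨{P, Q}, B + 1, ?_, ?_, ?_, ?_, ?_, ?_, ?_, ?_, ?_, ?_⟩
  · exact Set.toFinite _
  · rintro ν (rfl | rfl) <;> exact antitone_const
  · rintro ν (rfl | rfl) j _ <;> rfl
  · rintro ν (rfl | rfl) <;> exact le_rfl
  · linarith
  · rintro ν (rfl | rfl) l hl
    · simp only [dot, P, zero_add, range_one, sum_singleton, mul_one]
      rcases lt_trichotomy (l 0) 0 with h | h | h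
      · have := hB l hl h.ne
        rw [abs_of_neg h] at this
        right; left; exact ⟨h, by linarith⟩
      · left; simp [h]
      · have := hB l hl h.ne'
        rw [abs_of_pos h] at this
        right; right; exact ⟨h, by linarith⟩
    · simp only [dot, Q, zero_add, range_one, sum_singleton, mul_one]
      rcases lt_trichotomy (l 0) 0 with h | h | h
      · have := hB l hl h.ne
        rw [abs_of_neg h] at this
        right; right; exact ⟨by linarith, by linarith⟩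
      · left; simp [h]
      · have := hB l hl h.ne'
        rw [abs_of_pos h] at this
        right; left; exact ⟨by linarith, by linarith⟩
  · rintro ν (rfl | rfl)
    · simp only [P]; fun_prop
    · simp only [Q]; fun_prop
  · rintro ν (rfl | rfl) x hx Λ hΛ
    · rw [hP]
      simp only [P]
      filter_upwards [ev_exp (2 * Λ) (show B - 1 - 1 < B by linarith),
        ev_exp (2 * (∑ j ∈ range d, x j) + 1) hB0] with T h1 h2
      simp only [mul_zero, Real.exp_zero] at h2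
      linarith
    · rw [hQ]
      simp only [Q]
      have hs : 0 < ∑ j ∈ range d, x j :=
        Finset.sum_pos (fun j _ => hx j) ⟨0, Finset.mem_range.mpr hd⟩
      filter_upwards [ev_small (half_pos hs) 1 (show -B < 0 by linarith),
        ev_small (half_pos hs) Λ (show -B - 1 - 1 < 0 by linarith)] with T h1 h2
      linarith
  · filter_upwards [hb0, eventually_ge_atTop 0] with T hT hT0 x ha hx hc j hj
    obtain rfl : j = 0 := by omega
    obtain ⟨h1, h2⟩ := hT x ha hx hc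
    rw [abs_le]; constructor <;> nlinarith
  · rintro ν (rfl | rfl) Λ hΛ
    · filter_upwards [hb0, eventually_ge_atTop 0, ev_exp (2 * Λ) (show B - 1 - 1 < B by linarith),
        ev_exp (2 * d) (show B - 1 < B by linarith)] with T hT hT0 e1 e2 x ha hx hc hn j hj
      obtain rfl : j = 0 := by omega
      obtain ⟨h1, h2⟩ := hT x ha hx hc
      rw [hP] at hn
      simp only [P] at hn ⊢
      obtain ⟨s1, s2⟩ := sum_bounds hd ha hx
      have h3 : T * (B - 1) ≤ Real.log (x 0) := le_log_of (hx 0)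
        (le_of_mul_le_mul_left (a := (d : ℝ)) (by linarith) hdR)
      rw [abs_le]; constructor <;> nlinarith
    · filter_upwards [hb0, eventually_ge_atTop 0, ev_exp (2 * Λ) (show -B - 1 - 1 < -B + 1 by linarith),
        ev_exp 2 (show -B < -B + 1 by linarith)] with T hT hT0 e1 e2 x ha hx hc hn j hj
      obtain rfl : j = 0 := by omega
      obtain ⟨h1, h2⟩ := hT x ha hx hc
      rw [hQ] at hn
      simp only [Q] at hn ⊢
      obtain ⟨s1, s2⟩ := sum_bounds hd ha hx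
      have h3 : Real.log (x 0) ≤ T * (-B + 1) := log_le_of (hx 0) (by linarith)
      rw [abs_le]; constructor <;> nlinarith

end Vale.Agent.P072
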